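import Vale.Agent.P315.H817.Auto

/-! Correctness logic for the clamped language, without time budgets. -/

set_option autoImplicit false

namespace Vale.Agent.P315.H817

open Vale.Agent.P315

/-- The effect of a program. -/
def HP.run (ρ : ℕ → ℕ) (p : HP) (s : State) : State := p.comp.run ρ s

theorem run_set (ρ : ℕ → ℕ) (i : ℕ) (e : Expr) (s : State) :
    (HP.set i e).run ρ s = s.setReg i (min (e.eval s) (s.reg 3)) := by
  simp only [HP.run, HP.comp, Prog.run, emin_eval, Expr.eval]

theorem run_put (ρ : ℕ → ℕ) (j : ℕ) (e e' : Expr) (s : State) :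
    (HP.put j e e').run ρ s = s.setArr j (e.eval s) (min (e'.eval s) (s.reg 3)) := by
  simp only [HP.run, HP.comp, Prog.run, emin_eval, Expr.eval]

theorem run_seq (ρ : ℕ → ℕ) (p q : HP) (s : State) :
    (HP.seq p q).run ρ s = q.run ρ (p.run ρ s) := rfl

theorem run_ite (ρ : ℕ → ℕ) (e : Expr) (p q : HP) (s : State) :
    (HP.ite e p q).run ρ s = if e.eval s = 0 then q.run ρ s else p.run ρ s := rfl

theorem run_loop (ρ : ℕ → ℕ) (i : ℕ) (e : Expr) (p : HP) (s : State) :
    (HP.loop i e p).run ρ s =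
      s.rounds (fun t s' => p.run ρ (s'.setReg i t)) (min (e.eval s) (s.reg 4)) := by
  simp only [HP.run, HP.comp, Prog.run, emin_eval, Expr.eval]

theorem run_big (ρ : ℕ → ℕ) (w : Expr) (q : Prog) (s : State) :
    (HP.big w q).run ρ s = if min (w.eval s) (s.reg 3) < s.reg 5 then
      q.run ρ ((s.setReg 9 (min (w.eval s) (s.reg 3))).setReg 5
        (s.reg 5 - (min (w.eval s) (s.reg 3) + 1)))
      else (s.setReg 9 (min (w.eval s) (s.reg 3))).setReg 9 0 := by
  have h9 : (s.setReg 9 (min (w.eval s) (s.reg 3))).reg 9 = min (w.eval s) (s.reg 3) := by simp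
  have h5 : (s.setReg 9 (min (w.eval s) (s.reg 3))).reg 5 = s.reg 5 := by simp
  by_cases h : min (w.eval s) (s.reg 3) < s.reg 5
  · rw [if_pos h]
    simp only [HP.run, HP.comp, Prog.run, emin_eval, Expr.eval, Op.eval, h9, h5, if_pos h,
      one_ne_zero, if_false]
  · rw [if_neg h]
    simp only [HP.run, HP.comp, Prog.run, emin_eval, Expr.eval, Op.eval, h9, h5, if_neg h,
      if_true]

/-- `Q` holds after `p`, started in `s`. -/
def Wp (ρ : ℕ → ℕ) (p : HP) (Q : State → Prop) (s : State) : Prop := Q (p.run ρ s)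

variable {ρ : ℕ → ℕ}

theorem Wp.mono {p : HP} {Q Q' : State → Prop} {s : State} (h : Wp ρ p Q s)
    (hQ : ∀ s', Q s' → Q' s') : Wp ρ p Q' s := hQ _ h

theorem Wp.set {i : ℕ} {e : Expr} {Q : State → Prop} {s : State} (v : ℕ) (hv : e.eval s = v)
    (hR : v ≤ s.reg 3) (h : Q (s.setReg i v)) : Wp ρ (.set i e) Q s := by
  subst hv
  simp only [Wp, run_set, min_eq_left hR]
  exact h

theorem Wp.put {j : ℕ} {e e' : Expr} {Q : State → Prop} {s : State} (u v : ℕ)
    (hu : e.eval s = u) (hv : e'.eval s = v) (hR : v ≤ s.reg 3) (h : Q (s.setArr j u v)) :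
    Wp ρ (.put j e e') Q s := by
  subst hv hu
  simp only [Wp, run_put, min_eq_left hR]
  exact h

theorem Wp.seq {p q : HP} {Q : State → Prop} {s : State}
    (h : Wp ρ p (fun s' => Wp ρ q Q s') s) : Wp ρ (.seq p q) Q s := h

theorem Wp.ite {e : Expr} {p q : HP} {Q : State → Prop} {s : State}
    (h0 : e.eval s = 0 → Wp ρ q Q s) (h1 : e.eval s ≠ 0 → Wp ρ p Q s) :
    Wp ρ (.ite e p q) Q s := by
  simp only [Wp, run_ite]
  split_ifs with h
  · exact h0 h
  · exact h1 h

/-- Loops. -/
theorem Wp.loop {i : ℕ} {e : Expr} {p : HP} {Q : State → Prop} {s : State} (n : ℕ)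
    (hn : e.eval s = n) (hL : n ≤ s.reg 4) (I : ℕ → State → Prop) (h0 : I 0 s)
    (hI : ∀ t, t < n → ∀ s', I t s' → Wp ρ p (I (t + 1)) (s'.setReg i t))
    (hQ : ∀ s', I n s' → Q s') : Wp ρ (.loop i e p) Q s := by
  subst hn
  simp only [Wp, run_loop, min_eq_left hL]
  apply hQ
  have key : ∀ m, m ≤ e.eval s →
      I m (s.rounds (fun t s' => p.run ρ (s'.setReg i t)) m) := by
    intro m
    induction m with
    | zero => intro _; exact h0
    | succ m ih =>
      intro hm
      exact hI m (by omega) _ (ih (by omega))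
  exact key _ le_rfl

/-- Written registers. -/
def HP.wr : HP → List ℕ
  | .set i _ => [i]
  | .put _ _ _ => []
  | .rnd i _ => [6, i]
  | .seq p q => p.wr ++ q.wr
  | .ite _ p q => p.wr ++ q.wr
  | .loop i _ p => i :: p.wr
  | .big _ q => 9 :: 5 :: q.wr

/-- Written arrays. -/
def HP.wa : HP → List ℕ
  | .set _ _ => []
  | .put j _ _ => [j]
  | .rnd _ _ => []
  | .seq p q => p.wa ++ q.wa
  | .ite _ p q => p.wa ++ q.wa
  | .loop _ _ p => p.wa
  | .big _ q => q.wa

theorem HP.frame (ρ : ℕ → ℕ) (p : HP) (s : State) : Frame s (p.run ρ s) p.wr p.wa := by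
  have h1 : ∀ p : HP, ∀ k, k ∈ p.comp.wr → k ∈ p.wr := by
    intro p
    induction p with
    | set i e => intro k hk; simpa [HP.comp, Prog.wr, HP.wr] using hk
    | put j e e' => intro k hk; simp [HP.comp, Prog.wr] at hk
    | rnd i e => intro k hk; simp [HP.comp, Prog.wr, HP.wr] at hk ⊢; tauto
    | seq p q ihp ihq =>
      intro k hk
      simp only [HP.comp, Prog.wr, HP.wr, List.mem_append] at hk ⊢
      exact hk.imp (ihp k) (ihq k)
    | ite e p q ihp ihq =>
      intro k hk
      simp only [HP.comp, Prog.wr, HP.wr, List.mem_append] at hk ⊢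
      exact hk.imp (ihp k) (ihq k)
    | loop i e p ih =>
      intro k hk
      simp only [HP.comp, Prog.wr, HP.wr, List.mem_cons] at hk ⊢
      exact hk.imp id (ih k)
    | big w q => intro k hk; simp [HP.comp, Prog.wr, HP.wr] at hk ⊢; tauto
  have h2 : ∀ p : HP, ∀ k, k ∈ p.comp.wa → k ∈ p.wa := by
    intro p
    induction p with
    | set i e => intro k hk; simp [HP.comp, Prog.wa] at hk
    | put j e e' => intro k hk; simpa [HP.comp, Prog.wa, HP.wa] using hk
    | rnd i e => intro k hk; simp [HP.comp, Prog.wa] at hk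
    | seq p q ihp ihq =>
      intro k hk
      simp only [HP.comp, Prog.wa, HP.wa, List.mem_append] at hk ⊢
      exact hk.imp (ihp k) (ihq k)
    | ite e p q ihp ihq =>
      intro k hk
      simp only [HP.comp, Prog.wa, HP.wa, List.mem_append] at hk ⊢
      exact hk.imp (ihp k) (ihq k)
    | loop i e p ih =>
      intro k hk
      simp only [HP.comp, Prog.wa, HP.wa] at hk ⊢
      exact ih k hk
    | big w q => intro k hk; simpa [HP.comp, Prog.wa, HP.wa] using hk
  exact (p.comp.frame ρ s).mono (h1 p) (h2 p)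

theorem Wp.withFrame {p : HP} {Q : State → Prop} {s : State} (h : Wp ρ p Q s) :
    Wp ρ p (fun s' => Frame s s' p.wr p.wa ∧ Q s') s := ⟨p.frame ρ s, h⟩

/-- Sequential composition with frame. -/
theorem Wp.seqF {p q : HP} {Q : State → Prop} {s : State} (P : State → Prop) (h : Wp ρ p P s)
    (h' : ∀ s', Frame s s' p.wr p.wa → P s' → Wp ρ q Q s') : Wp ρ (.seq p q) Q s :=
  h' _ (p.frame ρ s) h

/-- Loops, with the frame available in the step. -/
theorem Wp.loopF {i : ℕ} {e : Expr} {p : HP} {Q : State → Prop} {s : State} (n : ℕ)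
    (hn : e.eval s = n) (hL : n ≤ s.reg 4) (I : ℕ → State → Prop) (h0 : I 0 s)
    (hI : ∀ t, t < n → ∀ s', Frame s s' (i :: p.wr) p.wa → I t s' →
      Wp ρ p (I (t + 1)) (s'.setReg i t))
    (hQ : ∀ s', Frame s s' (i :: p.wr) p.wa → I n s' → Q s') : Wp ρ (.loop i e p) Q s := by
  refine Wp.loop n hn hL (fun t s' => Frame s s' (i :: p.wr) p.wa ∧ I t s')
    ⟨Frame.refl _ _ _, h0⟩ ?_ (fun s' h => hQ s' h.1 h.2)
  rintro t ht s' ⟨hf, hi⟩
  have h1 := hI t ht s' hf hi
  refine ⟨?_, h1⟩
  refine hf.trans (((frame_setReg s' i t).mono (fun k hk => ?_) (fun k hk => by simp at hk)).trans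
    ((p.frame ρ _).mono (fun k hk => List.mem_cons_of_mem _ hk) (fun k hk => hk)))
  simp at hk
  simp [hk]

/-! ### Checks that are decided by computation -/

/-- Boolean form of `Okx` with constants at most `c`. -/
def okx (c : ℕ) : Expr → Bool
  | .lit a => decide (a ≤ c)
  | .reg i => decide (i ≠ 6)
  | .get j e => decide (2 ≤ j) && okx c e
  | .op o e e' => match o, e, e' with
    | .eq, .get _ a, .get _ a' => okx c a && okx c a'
    | _, e, e' => okx c e && okx c e'

theorem Okx_of_okx {c R : ℕ} (hc : c ≤ R) : ∀ e : Expr, okx c e = true → Okx R e := by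
  suffices H : ∀ n : ℕ, ∀ e : Expr, e.cost ≤ n → okx c e = true → Okx R e from
    fun e => H e.cost e le_rfl
  intro n
  induction n with
  | zero => intro e he; have := e.one_le_cost; omega
  | succ n ih =>
    intro e hn hok
    cases e with
    | lit a =>
      have h : a ≤ c := by simpa [okx] using hok
      exact h.trans hc
    | reg i => simpa [okx, Okx] using hok
    | get j e =>
      simp only [okx, Bool.and_eq_true, decide_eq_true_eq] at hok
      simp only [Expr.cost] at hn
      exact ⟨hok.1, ih e (by omega) hok.2⟩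
    | op o e e' =>
      simp only [Expr.cost] at hn
      have c1 := e.one_le_cost
      have c2 := e'.one_le_cost
      by_cases hcmp : ∃ j a j' a', o = .eq ∧ e = .get j a ∧ e' = .get j' a'
      · obtain ⟨j, a, j', a', rfl, rfl, rfl⟩ := hcmp
        simp only [Expr.cost] at hn
        have hok' : (okx c a && okx c a') = true := hok
        rw [Bool.and_eq_true] at hok'
        exact ⟨ih a (by omega) hok'.1, ih a' (by omega) hok'.2⟩
      · rw [Okx_op hcmp]
        have h2 : (okx c e && okx c e') = true := by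
          cases o <;> try exact hok
          cases e <;> try exact hok
          cases e' <;> try exact hok
          exact absurd ⟨_, _, _, _, rfl, rfl, rfl⟩ hcmp
        rw [Bool.and_eq_true] at h2
        exact ⟨ih e (by omega) h2.1, ih e' (by omega) h2.2⟩

/-- Boolean form of `wok`. -/
def wokb (i : ℕ) : Bool := decide (i ≠ 3) && decide (i ≠ 4) && decide (i ≠ 5) && decide (i ≠ 6)

theorem wok_of_wokb {i : ℕ} (h : wokb i = true) : wok i := by
  simp only [wokb, Bool.and_eq_true, decide_eq_true_eq] at h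
  exact ⟨h.1.1.1, h.1.1.2, h.1.2, h.2⟩

/-- The expensive subprograms. -/
def HP.bigs : HP → List Prog
  | .set _ _ => []
  | .put _ _ _ => []
  | .rnd _ _ => []
  | .seq p q => p.bigs ++ q.bigs
  | .ite _ p q => p.bigs ++ q.bigs
  | .loop _ _ p => p.bigs
  | .big _ q => [q]

/-- Boolean check of programs (apart from the expensive subprograms): constants at most `c`,
expressions of cost at most `m`. -/
def HP.ok (c m : ℕ) : HP → Bool
  | .set i e => wokb i && okx c e && decide (e.cost ≤ m)
  | .put j e e' => decide (2 ≤ j) && okx c e && okx c e' && decide (e.cost ≤ m) &&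
      decide (e'.cost ≤ m)
  | .rnd i e => wokb i && okx c e && decide (e.cost ≤ m)
  | .seq p q => p.ok c m && q.ok c m
  | .ite e p q => okx c e && decide (e.cost ≤ m) && p.ok c m && q.ok c m
  | .loop i e p => wokb i && okx c e && decide (e.cost ≤ m) && p.ok c m
  | .big w _ => okx c w && decide (w.cost ≤ m)

theorem HP.Ok_of_ok {E : Env} {T c m : ℕ} (hc : c ≤ E.R) (hm : 2 * m + 10 ≤ E.S) (p : HP)
    (h : p.ok c m = true) (hb : ∀ q ∈ p.bigs, BigOk E T q) : p.Ok E T := by
  induction p with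
  | set i e =>
    simp only [HP.ok, Bool.and_eq_true, decide_eq_true_eq] at h
    exact ⟨wok_of_wokb h.1.1, Okx_of_okx hc e h.1.2, by omega⟩
  | put j e e' =>
    simp only [HP.ok, Bool.and_eq_true, decide_eq_true_eq] at h
    exact ⟨h.1.1.1.1, Okx_of_okx hc e h.1.1.1.2, Okx_of_okx hc e' h.1.1.2, by omega, by omega⟩
  | rnd i e =>
    simp only [HP.ok, Bool.and_eq_true, decide_eq_true_eq] at h
    exact ⟨wok_of_wokb h.1.1, Okx_of_okx hc e h.1.2, by omega⟩
  | seq p q ihp ihq =>
    simp only [HP.ok, Bool.and_eq_true] at h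
    exact ⟨ihp h.1 fun r hr => hb r (by simp [HP.bigs, hr]),
      ihq h.2 fun r hr => hb r (by simp [HP.bigs, hr])⟩
  | ite e p q ihp ihq =>
    simp only [HP.ok, Bool.and_eq_true, decide_eq_true_eq] at h
    exact ⟨Okx_of_okx hc e h.1.1.1, by omega, ihp h.1.2 fun r hr => hb r (by simp [HP.bigs, hr]),
      ihq h.2 fun r hr => hb r (by simp [HP.bigs, hr])⟩
  | loop i e p ih =>
    simp only [HP.ok, Bool.and_eq_true, decide_eq_true_eq] at h
    exact ⟨wok_of_wokb h.1.1.1, Okx_of_okx hc e h.1.1.2, by omega, ih h.2 hb⟩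
  | big w q =>
    simp only [HP.ok, Bool.and_eq_true, decide_eq_true_eq] at h
    exact ⟨Okx_of_okx hc w h.1, by omega, hb q (by simp [HP.bigs])⟩

/-! ### Composite statements -/

/-- `Skip`: a statement without effect. -/
def HP.skip : HP := .loop 7 (.lit 0) (.set 7 (.lit 0))

theorem run_skip (ρ : ℕ → ℕ) (s : State) : HP.skip.run ρ s = s := by
  simp [HP.skip, run_loop, Expr.eval, State.rounds]

/-- Fill array `j`: for `t = 0, …, n-1` the entry at address `a` gets value `v` (expressions in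
which register `i` holds `t`). -/
def HP.fill (i : ℕ) (n : Expr) (j : ℕ) (a v : Expr) : HP := .loop i n (.put j a v)

theorem Wp.fill {i : ℕ} {n : Expr} {j : ℕ} {a v : Expr} {Q : State → Prop} {s : State} (m : ℕ)
    (A V : ℕ → ℕ) (hn : n.eval s = m) (hL : m ≤ s.reg 4)
    (ha : ∀ t, t < m → ∀ s', Frame s s' [i] [j] →
      (∀ u, (∀ t', t' < t → A t' ≠ u) → s'.arr j u = s.arr j u) →
      (∀ t', t' < t → (∀ t'', t' < t'' → t'' < t → A t'' ≠ A t') → s'.arr j (A t') = V t') →
      a.eval (s'.setReg i t) = A t ∧ v.eval (s'.setReg i t) = V t ∧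
        V t ≤ (s'.setReg i t).reg 3)
    (hQ : ∀ s', Frame s s' [i] [j] → (∀ u, (∀ t', t' < m → A t' ≠ u) → s'.arr j u = s.arr j u) →
      (∀ t', t' < m → (∀ t'', t' < t'' → t'' < m → A t'' ≠ A t') → s'.arr j (A t') = V t') →
      Q s') : Wp ρ (HP.fill i n j a v) Q s := by
  refine Wp.loopF m hn hL (fun t s' =>
    (∀ u, (∀ t', t' < t → A t' ≠ u) → s'.arr j u = s.arr j u) ∧
      (∀ t', t' < t → (∀ t'', t' < t'' → t'' < t → A t'' ≠ A t') → s'.arr j (A t') = V t'))
    ⟨fun _ _ => rfl, fun t' h => absurd h (by omega)⟩ ?_ (fun s' hf h => hQ s' hf h.1 h.2)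
  rintro t ht s' hf ⟨h1, h2⟩
  obtain ⟨e1, e2, e3⟩ := ha t ht s' hf h1 h2
  refine Wp.put (A t) (V t) e1 e2 e3 ⟨fun u hu => ?_, fun t' ht' hlast => ?_⟩
  · rw [State.setArr_arr]
    have h3 : A t ≠ u := hu t (by omega)
    rw [if_neg (fun h => h3 h.2.symm)]
    exact h1 u (fun t' ht' => hu t' (by omega))
  · rw [State.setArr_arr]
    rcases Nat.lt_succ_iff_lt_or_eq.mp ht' with h | h
    · have h3 : A t ≠ A t' := hlast t h (by omega)
      rw [if_neg (fun h => h3 h.2.symm)]
      exact h2 t' h (fun t'' h4 h5 => hlast t'' h4 (by omega))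
    · subst h
      simp

end Vale.Agent.P315.H817
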