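import Vale.Agent.P315.H817.AdCell2

/-! The cell program with one start per query, without a band. -/

set_option autoImplicit false

namespace Vale.Agent.P315.H817

open Vale.Agent.P315

/-- The program: register `z` holds the query `q = i D + a`: row `i`, start `a g`; output in
array `A`, its length in register `z + 7`. Registers: `50` length `l` of the rows, `51` mesh `g`,
`52` number `m` of mesh steps in a row, `53` the number `D`. -/
def stCell (z A : ℕ) : Prog :=
  .seq (.set 41 (emul (ediv (.reg z) (.reg 53)) (.reg 50)))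
  (.seq (.set 40 (emul (emod (.reg z) (.reg 53)) (.reg 51)))
  (.seq (.set 49 (.lit 0))
  (.seq (strip A)
  (.set (z + 7) (eadd (.reg 52) (.lit 1))))))

/-- Entry `e` of the answer to the query `q`: the cost in row `q / D` from the start
`u = (q % D) g` to the end `u + e g`. -/
def stVal (X Y : ℕ → ℕ) (l g D q e : ℕ) : ℕ :=
  En X Y (q / D * l) (q % D * g) (q / D * l + l) (q % D * g + e * g)

/-- The answer to the query `q`. -/
def stAns (X Y : ℕ → ℕ) (l g m D q : ℕ) : List ℕ := (List.range (m + 1)).map (stVal X Y l g D q)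

theorem length_stAns (X Y : ℕ → ℕ) (l g m D q : ℕ) : (stAns X Y l g m D q).length = m + 1 := by
  simp [stAns]

theorem stAns_getD (X Y : ℕ → ℕ) (l g m D q : ℕ) {a : ℕ} (ha : a < m + 1) :
    (stAns X Y l g m D q).getD a 0 = stVal X Y l g D q a := by
  rw [List.getD_eq_getElem _ _ (by simpa [stAns] using ha)]
  simp [stAns]

theorem stAns_le (X Y : ℕ → ℕ) {l g m D q v : ℕ} (hl : m * g ≤ l)
    (hv : v ∈ stAns X Y l g m D q) : v ≤ l := by
  obtain ⟨a, ha, rfl⟩ := List.mem_map.mp hv
  refine En_le (le_trans (Nat.mul_le_mul_right g ?_) hl)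
  simpa [Nat.lt_succ_iff] using ha

/-- The code of row `i` and start `a`. -/
theorem stVal_code (X Y : ℕ → ℕ) (l g : ℕ) {D i a : ℕ} (ha : a < D) (e : ℕ) :
    stVal X Y l g D (i * D + a) e = En X Y (i * l) (a * g) (i * l + l) (a * g + e * g) := by
  have hD : 0 < D := by omega
  have h1 : (i * D + a) / D = i := by
    rw [Nat.add_comm, Nat.add_mul_div_right _ _ hD, Nat.div_eq_of_lt ha, Nat.zero_add]
  have h2 : (i * D + a) % D = a := by
    rw [Nat.add_comm, Nat.add_mul_mod_self_right, Nat.mod_eq_of_lt ha]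
  unfold stVal
  rw [h1, h2]

theorem stCell_spec {E : Env} {s : State} {X Y : ℕ → ℕ} {z A q l g m D : ℕ} (hz : 58 ≤ z)
    (hA : 3 ≤ A) (h0 : s.arr 0 = X) (h1 : s.arr 1 = Y) (hq : s.reg z = q)
    (h50 : s.reg 50 = l) (h51 : s.reg 51 = g) (h52 : s.reg 52 = m) (h53 : s.reg 53 = D)
    (hl : m * g ≤ l) (hlR : l + 1 ≤ E.R) (hgR : l + g ≤ E.R) (hm : m + 1 ≤ E.R)
    (hi : q / D * l ≤ E.R) (ha : q % D * g ≤ E.R) :
    Spec E s (stCell z A) (70 + ((l + 1) * 14 + (m + 1) * (14 + g * (68 + l * 122))))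
      (fun s' => s'.reg (z + 7) = (stAns X Y l g m D q).length ∧
        ∀ a, a < (stAns X Y l g m D q).length → s'.arr A a = (stAns X Y l g m D q).getD a 0) := by
  unfold stCell
  refine Spec.set_seq (q / D * l) rfl (by simp [ediv, emul, Expr.cost]) ?_ (fun _ => hi) ?_
  · simp [hq, h50, h53]
  refine Spec.set_seq (q % D * g) rfl (by simp [ediv, emod, emul, Expr.cost]) ?_ (fun _ => ha) ?_
  · have hz41 : z ≠ 41 := by omega
    simp [hq, h51, h53, hz41]
  refine Spec.set_seq 0 rfl (by simp [ediv, emod, emul, Expr.cost]) ?_ (fun _ => by omega) ?_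
  · simp
  refine Spec.seq 30 ((l + 1) * 14 + (m + 1) * (14 + g * (68 + l * 122))) 4 0
    (fun s' => ∀ e ≤ m, s'.arr A e = stVal X Y l g D q e)
    (by simp [ediv, emod, emul, Expr.cost]) (by omega) ?_ ?_
  · refine Spec.mono (strip_spec (X := X) (Y := Y) (u := q % D * g) (t := q / D * l)
      (l := l) (g := g) (m := m) (base := 0) hA ?_ ?_ ?_ ?_ ?_ ?_ ?_ ?_ hl hlR hgR hm) le_rfl ?_
    · simpa using h0
    · simpa using h1
    · simp
    · simp
    · simp
    · simpa using h50
    · simpa using h51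
    · simpa using h52
    · rintro s' ⟨h3, -⟩ e he
      have := h3 e he
      rw [Nat.zero_add] at this
      rw [this]
      rfl
  · intro s' hfr h
    have e52 : s'.reg 52 = m := by
      rw [hfr.reg 52 (by simp [Prog.wr, strip, dpRow, dpCell])]; simpa using h52
    refine Spec.set (m + 1) rfl (by simp [eadd, Expr.cost]) ?_ (fun _ => hm) ?_
    · simp [e52]
    · intro _
      rw [length_stAns]
      refine ⟨by simp, fun a ha' => ?_⟩
      rw [stAns_getD X Y l g m D q ha']
      simpa using h a (by omega)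

theorem stCell_wr {z A : ℕ} : ∀ r ∈ (stCell z A).wr, (10 ≤ r ∧ r ≤ 20) ∨ (39 ≤ r ∧ r ≤ 49) ∨
    r = z + 7 := by
  intro r hr
  simp [stCell, strip, Prog.wr, dpRow, dpCell] at hr
  omega

theorem stCell_wa {z A : ℕ} : ∀ r ∈ (stCell z A).wa, r = 2 ∨ r = A := by
  intro r hr
  simp [stCell, strip, Prog.wa, dpRow, dpCell] at hr
  omega

/-- The cell program in the form wanted by the oracle loop. -/
theorem stCell_oracle {E : Env} {X Y : ℕ → ℕ} {z A l g m D : ℕ} (hz : 58 ≤ z) (hA : 3 ≤ A)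
    (hl : m * g ≤ l) (hlR : l + 1 ≤ E.R) (hgR : l + g ≤ E.R) (hm : m + 1 ≤ E.R)
    (Inv : State → Prop)
    (hI : ∀ s, Inv s → s.arr 0 = X ∧ s.arr 1 = Y ∧ s.reg 50 = l ∧ s.reg 51 = g ∧
      s.reg 52 = m ∧ s.reg 53 = D)
    (hF : ∀ s s' : State, Inv s → (∀ r, ¬ (10 ≤ r ∧ r ≤ 20) → ¬ (39 ≤ r ∧ r ≤ 49) →
      r ≠ z + 7 → s'.reg r = s.reg r) → (∀ j, j ≠ 2 → j ≠ A → s'.arr j = s.arr j) → Inv s')
    (s : State) (q : ℕ) (hs : Inv s) (hq : s.reg z = q) (hi : q / D * l ≤ E.R)
    (ha : q % D * g ≤ E.R) :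
    Spec E s (stCell z A) (70 + ((l + 1) * 14 + (m + 1) * (14 + g * (68 + l * 122))))
      (fun s' => Inv s' ∧ s'.reg (z + 7) = (stAns X Y l g m D q).length ∧
        ∀ a, a < (stAns X Y l g m D q).length → s'.arr A a = (stAns X Y l g m D q).getD a 0) := by
  obtain ⟨h0, h1, h50, h51, h52, h53⟩ := hI s hs
  refine Spec.mono (stCell_spec hz hA h0 h1 hq h50 h51 h52 h53 hl hlR hgR hm hi ha).withFrame
    le_rfl ?_
  rintro s' ⟨hf, h⟩
  refine ⟨hF s s' hs (fun r r1 r2 r3 => hf.reg r fun hr => ?_) (fun j j1 j2 => hf.arr j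
    fun hj => ?_), h⟩
  · rcases stCell_wr r hr with h | h | h
    · exact r1 h
    · exact r2 h
    · exact r3 h
  · rcases stCell_wa j hj with h | h
    · exact j1 h
    · exact j2 h

/-- The time in a simple form, for `m g = l`. -/
theorem stCell_time {l g m : ℕ} (h : m * g = l) :
    70 + ((l + 1) * 14 + (m + 1) * (14 + g * (68 + l * 122))) ≤
      300 * ((l + g + m + 1) * (l + 1)) := by
  subst h
  nlinarith [Nat.zero_le (m * g), Nat.zero_le m, Nat.zero_le g, Nat.zero_le (m * (m * g)),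
    Nat.zero_le (m * g * (m * g)), Nat.zero_le (m * m), Nat.zero_le (m * g * g)]

/-- A cost from a start to all ends, in the moving frame: position `p` before row `i` is the
index `p + i (l / 2) - off` of the first string. -/
def mx (l off i p : ℕ) : ℕ := p + i * (l / 2) - off

/-- The moving frame: the entry number `(mx (i+1) p' - mx i p) / g` of the answer to the start
`mx i p` is the cost from `p` to `p'`. -/
theorem stVal_moving (X Y : ℕ → ℕ) {l g D off i p p' : ℕ} (hl2 : g ∣ l / 2)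
    (hoff : g ∣ off) (hp : g ∣ p) (hp' : g ∣ p') (h1 : p ≤ p' + l / 2)
    (hD : mx l off i p / g < D) :
    stVal X Y l g D (i * D + mx l off i p / g) ((mx l off (i + 1) p' - mx l off i p) / g) =
      En X Y (i * l) (mx l off i p) ((i + 1) * l) (mx l off (i + 1) p') := by
  have hle : mx l off i p ≤ mx l off (i + 1) p' := by
    unfold mx
    have : (i + 1) * (l / 2) = i * (l / 2) + l / 2 := by ring
    omega
  have d1 : g ∣ mx l off i p := by
    unfold mx
    exact Nat.dvd_sub (Nat.dvd_add hp (hl2.mul_left i)) hoff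
  have d2 : g ∣ mx l off (i + 1) p' := by
    unfold mx
    exact Nat.dvd_sub (Nat.dvd_add hp' (hl2.mul_left (i + 1))) hoff
  have d3 : g ∣ mx l off (i + 1) p' - mx l off i p := Nat.dvd_sub d2 d1
  rw [stVal_code X Y l g hD, Nat.div_mul_cancel d1, Nat.div_mul_cancel d3,
    show mx l off i p + (mx l off (i + 1) p' - mx l off i p) = mx l off (i + 1) p' by omega,
    show i * l + l = (i + 1) * l by ring]

end Vale.Agent.P315.H817
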