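import Vale.Agent.P315.H817.Cell

/-! The cell program in antidiagonal time: all costs between the starts of one cell (a block of
positions before a row of length `l`) and the positions of a mesh after the row. -/

set_option autoImplicit false

namespace Vale.Agent.P315.H817

open Vale.Agent.P315

/-- Distance between the points `(u, t - u)` and `(v, t' - v)`. -/
def En (X Y : ℕ → ℕ) (t u t' v : ℕ) : ℕ := dist X Y u (v - u) (t - u) ((t' - v) - (t - u))

/-- One start. Registers: `40` position `u`, `41` time `t`, `49` first address of the output in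
array `A`, `50` length `l` of the row, `51` mesh, `52` number of mesh steps in a row. -/
def strip (A : ℕ) : Prog :=
  .seq (.set 10 (.reg 40))
  (.seq (.set 12 (esub (.reg 41) (.reg 40)))
  (.seq (.set 13 (esub (esub (eadd (.reg 41) (.reg 50)) (.reg 40)) (.reg 12)))
  (.seq (.set 14 (.reg 50))
  (.seq (.loop 17 (eadd (.reg 13) (.lit 1))
    (.put 2 (.reg 17) (emin (.reg 17) (eadd (.reg 14) (.lit 1)))))
  (.loop 47 (eadd (.reg 52) (.lit 1))
    (.seq (.put A (eadd (.reg 49) (.reg 47))
      (.get 2 (esub (.reg 13) (emul (.reg 47) (.reg 51)))))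
    (.loop 48 (.reg 51)
      (.seq (.set 15 (eadd (emul (.reg 47) (.reg 51)) (.reg 48))) dpRow))))))))

theorem En_eq {X Y : ℕ → ℕ} {t u l c k : ℕ} (hk : l ≤ k) (hc : c ≤ l) :
    cap X Y u (t - u) k c (((t + l - u) - (t - u)) - c) = En X Y t u (t + l) (u + c) := by
  unfold cap En
  rw [show u + c - u = c by omega,
    show (t + l - (u + c)) - (t - u) = ((t + l - u) - (t - u)) - c by omega]
  apply min_eq_left
  have := dist_le X Y u c (t - u) (((t + l - u) - (t - u)) - c)
  omega

theorem strip_spec {E : Env} {s : State} {X Y : ℕ → ℕ} {A u t l g m base : ℕ} (hA : 3 ≤ A)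
    (h0 : s.arr 0 = X) (h1 : s.arr 1 = Y) (h40 : s.reg 40 = u) (h41 : s.reg 41 = t)
    (h49 : s.reg 49 = base) (h50 : s.reg 50 = l) (h51 : s.reg 51 = g) (h52 : s.reg 52 = m)
    (hl : m * g ≤ l) (hlR : l + 1 ≤ E.R) (hgR : l + g ≤ E.R) (hm : m + 1 ≤ E.R) :
    Spec E s (strip A) (30 + ((l + 1) * 14 + (m + 1) * (14 + g * (68 + l * 122))))
      (fun s' => (∀ e ≤ m, s'.arr A (base + e) = En X Y t u (t + l) (u + e * g)) ∧
        ∀ a, a < base → s'.arr A a = s.arr A a) := by
  unfold strip
  set ly := (t + l - u) - (t - u) with hly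
  have hlyl : ly ≤ l := by omega
  have hA2 : A ≠ 2 := by omega
  have hA0 : A ≠ 0 := by omega
  have hA1 : A ≠ 1 := by omega
  refine Spec.set_seq u rfl (by decide) ?_ (fun hb => ?_) ?_
  · simp [h40]
  · rw [← h40]; exact hb.reg 40
  refine Spec.set_seq (t - u) rfl (by decide) ?_ (fun hb => ?_) ?_
  · simp [h40, h41]
  · have := hb.reg 41
    simp [h41] at this
    omega
  refine Spec.set_seq ly rfl (by decide) ?_ (fun hb => by omega) ?_
  · simp [h40, h41, h50, hly]
  refine Spec.set_seq l rfl (by decide) ?_ (fun hb => by omega) ?_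
  · simp [h50]
  refine Spec.seq 4 ((l + 1) * 14) 4 ((m + 1) * (14 + g * (68 + l * 122)))
    (fun s' => ∀ j ≤ ly, s'.arr 2 j = cap X Y u (t - u) l 0 j) (by decide) le_rfl ?_ ?_
  · refine Spec.mono (Spec.loop (ly + 1) (12 + 0) (fun t' s' => ∀ j < t', s'.arr 2 j =
        cap X Y u (t - u) l 0 j) rfl (by decide) (Nat.mul_le_mul_right 14 (by omega)) ?_ ?_ ?_ ?_)
        le_rfl ?_
    · simp
    · intro _; omega
    · intro _ j hj; omega
    · intro t' ht s' hb hfr hI
      have g14 : s'.reg 14 = l := by rw [hfr.reg 14 (by decide)]; simp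
      refine Spec.put t' (min t' (l + 1)) (by norm_num) rfl rfl (by decide) ?_ ?_
        (fun _ => by omega) ?_
      · simp
      · simp [g14]
      · intro _ j hj
        by_cases hjt : j = t'
        · subst hjt; simp [cap_zero]
        · simp [hjt, hI j (by omega)]
    · intro s' h j hj; exact h j (by omega)
  intro s1 hfr1 hrow
  have f0 : s1.arr 0 = X := by rw [hfr1.arr 0 (by decide)]; simpa using h0
  have f1 : s1.arr 1 = Y := by rw [hfr1.arr 1 (by decide)]; simpa using h1
  have f10 : s1.reg 10 = u := by rw [hfr1.reg 10 (by decide)]; simp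
  have f12 : s1.reg 12 = t - u := by rw [hfr1.reg 12 (by decide)]; simp
  have f13 : s1.reg 13 = ly := by rw [hfr1.reg 13 (by decide)]; simp
  have f14 : s1.reg 14 = l := by rw [hfr1.reg 14 (by decide)]; simp
  have f49 : s1.reg 49 = base := by rw [hfr1.reg 49 (by decide)]; simpa using h49
  have f51 : s1.reg 51 = g := by rw [hfr1.reg 51 (by decide)]; simpa using h51
  have f52 : s1.reg 52 = m := by rw [hfr1.reg 52 (by decide)]; simpa using h52
  have fA : s1.arr A = s.arr A := by
    rw [hfr1.arr A (by simp [Prog.wa, hA2])]; simp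
  refine Spec.mono (Spec.loop (m + 1) (12 + g * (68 + l * 122)) (fun τ s' =>
      (∀ j ≤ ly, s'.arr 2 j = cap X Y u (t - u) l (τ * g) j) ∧
      (∀ e < τ, s'.arr A (base + e) = En X Y t u (t + l) (u + e * g)) ∧
      ∀ a, a < base → s'.arr A a = s.arr A a) rfl (by decide)
      (by apply le_of_eq; ring) ?_ ?_ ?_ ?_) le_rfl ?_
  · simp [f52]
  · intro _; exact hm
  · intro _
    refine ⟨by simpa using hrow, fun e he => by omega, fun a _ => by rw [fA]⟩
  · rintro τ hτ s' hb hfr ⟨i1, i2, i3⟩
    have e0 : s'.arr 0 = X := by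
      rw [hfr.arr 0 (by simp [Prog.wa, dpRow, dpCell, hA0.symm])]; exact f0
    have e1 : s'.arr 1 = Y := by
      rw [hfr.arr 1 (by simp [Prog.wa, dpRow, dpCell, hA1.symm])]; exact f1
    have e10 : s'.reg 10 = u := by
      rw [hfr.reg 10 (by simp [Prog.wr, dpRow, dpCell])]; exact f10
    have e12 : s'.reg 12 = t - u := by
      rw [hfr.reg 12 (by simp [Prog.wr, dpRow, dpCell])]; exact f12
    have e13 : s'.reg 13 = ly := by
      rw [hfr.reg 13 (by simp [Prog.wr, dpRow, dpCell])]; exact f13
    have e14 : s'.reg 14 = l := by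
      rw [hfr.reg 14 (by simp [Prog.wr, dpRow, dpCell])]; exact f14
    have e49 : s'.reg 49 = base := by
      rw [hfr.reg 49 (by simp [Prog.wr, dpRow, dpCell])]; exact f49
    have e51 : s'.reg 51 = g := by
      rw [hfr.reg 51 (by simp [Prog.wr, dpRow, dpCell])]; exact f51
    have hc : τ * g ≤ l := le_trans (Nat.mul_le_mul_right g (by omega)) hl
    have hval : s'.arr 2 (ly - τ * g) = En X Y t u (t + l) (u + τ * g) := by
      rw [i1 _ (by omega)]
      exact En_eq le_rfl hc
    have hEn : En X Y t u (t + l) (u + τ * g) ≤ l + 1 := by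
      rw [← En_eq (X := X) (Y := Y) (t := t) (u := u) (le_refl l) hc]
      exact min_le_right _ _
    refine Spec.put_seq (a := 12) (d := g * (68 + l * 122)) (base + τ)
      (En X Y t u (t + l) (u + τ * g)) (by omega) rfl rfl (by decide) ?_ ?_
      (fun _ => hEn.trans hlR) ?_
    · simp [e49]
    · simp [e13, e51, hval]
    refine Spec.mono (Spec.loop g (66 + l * 122) (fun ι s'' =>
        ∀ j ≤ ly, s''.arr 2 j = cap X Y u (t - u) l (τ * g + ι) j) rfl (by decide)
        (by apply le_of_eq; ring) ?_ ?_ ?_ ?_).withFrame le_rfl ?_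
    · simp [e51]
    · intro hb'
      have := hb'.reg 51
      simpa [e51] using this
    · intro _ j hj
      rw [State.setArr_arr_ne _ _ _ hA2.symm]
      simpa using i1 j hj
    · intro ι hι s'' hb' hfr' hI
      refine Spec.set_seq (a := 66) (d := l * 122) (τ * g + ι) rfl (by decide) ?_
        (fun hb'' => ?_) ?_
      · have q47 : s''.reg 47 = τ := by
          rw [hfr'.reg 47 (by simp [Prog.wr, dpRow, dpCell])]; simp
        have q51 : s''.reg 51 = g := by
          rw [hfr'.reg 51 (by simp [Prog.wr, dpRow, dpCell])]; simpa using e51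
        simp [q47, q51]
      · omega
      · refine Spec.mono (dpRow_spec (X := X) (Y := Y) (px := u) (py := t - u) (ly := ly)
          (k := l) (i := τ * g + ι) ?_ ?_ ?_ ?_ ?_ ?_ ?_ hlR ?_) ?_ ?_
        · simp only [State.setReg_arr]
          rw [hfr'.arr 0 (by simp [Prog.wa, dpRow, dpCell]), State.setArr_arr_ne _ _ _ hA0.symm]
          exact e0
        · simp only [State.setReg_arr]
          rw [hfr'.arr 1 (by simp [Prog.wa, dpRow, dpCell]), State.setArr_arr_ne _ _ _ hA1.symm]
          exact e1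
        · simp
          rw [hfr'.reg 10 (by simp [Prog.wr, dpRow, dpCell])]; simpa using e10
        · simp
          rw [hfr'.reg 12 (by simp [Prog.wr, dpRow, dpCell])]; simpa using e12
        · simp
          rw [hfr'.reg 13 (by simp [Prog.wr, dpRow, dpCell])]; simpa using e13
        · simp
          rw [hfr'.reg 14 (by simp [Prog.wr, dpRow, dpCell])]; simpa using e14
        · simp
        · simpa using hI
        · have : min ly (2 * l + 1) ≤ l := by omega
          have := Nat.mul_le_mul_right 122 this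
          simp [Expr.cost, eadd, emul]
          omega
        · intro s3 h3 j hj
          rw [h3 j hj, Nat.add_assoc]
    · rintro s3 ⟨hf3, h3⟩
      have hA3 : s3.arr A = (s'.setReg 47 τ |>.setArr A (base + τ)
          (En X Y t u (t + l) (u + τ * g))).arr A := hf3.arr A (by
            simp [Prog.wa, dpRow, dpCell, hA2])
      refine ⟨fun j hj => ?_, fun e he => ?_, fun a ha => ?_⟩
      · rw [h3 j hj, show (τ + 1) * g = τ * g + g by ring]
      · rw [hA3, State.setArr_arr]
        by_cases het : e = τ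
        · subst het; simp
        · rw [if_neg (by omega)]
          simpa using i2 e (by omega)
      · rw [hA3, State.setArr_arr, if_neg (by omega)]
        simpa using i3 a ha
  · rintro s' ⟨-, i2, i3⟩
    exact ⟨fun e he => i2 e (by omega), i3⟩

/-- The cell program: register `z` holds the query `q = i D + k`; output in array `A`, its length
in register `z + 7`. Registers: `50` length `l` of the rows, `51` mesh, `52` number of mesh steps
in a row, `53` the number `D`. -/
def adCell (z A : ℕ) : Prog :=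
  .seq (.set 54 (ediv (.reg z) (.reg 53)))
  (.seq (.set 55 (emod (.reg z) (.reg 53)))
  (.seq (.set 41 (emul (.reg 54) (.reg 50)))
  (.seq (.loop 56 (.reg 52)
    (.seq (.set 40 (eadd (emul (.reg 55) (.reg 50)) (emul (.reg 56) (.reg 51))))
    (.seq (.set 49 (emul (.reg 56) (eadd (.reg 52) (.lit 1))))
      (strip A))))
  (.set (z + 7) (emul (.reg 52) (eadd (.reg 52) (.lit 1)))))))

/-- Entry `a` of the answer to the query `q`: the cost from the start number `a / (m + 1)` of the
cell to the position `a % (m + 1)` mesh steps further. -/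
def adVal (X Y : ℕ → ℕ) (l g m D q a : ℕ) : ℕ :=
  En X Y (q / D * l) (q % D * l + a / (m + 1) * g) (q / D * l + l)
    (q % D * l + a / (m + 1) * g + a % (m + 1) * g)

/-- The answer to the query `q`. -/
def adAns (X Y : ℕ → ℕ) (l g m D q : ℕ) : List ℕ :=
  (List.range (m * (m + 1))).map (adVal X Y l g m D q)

theorem length_adAns (X Y : ℕ → ℕ) (l g m D q : ℕ) : (adAns X Y l g m D q).length = m * (m + 1) := by
  simp [adAns]

theorem adAns_getD (X Y : ℕ → ℕ) (l g m D q : ℕ) {a : ℕ} (ha : a < m * (m + 1)) :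
    (adAns X Y l g m D q).getD a 0 = adVal X Y l g m D q a := by
  rw [List.getD_eq_getElem _ _ (by simpa [adAns] using ha)]
  simp [adAns]

theorem En_le {X Y : ℕ → ℕ} {t u l c : ℕ} (hc : c ≤ l) : En X Y t u (t + l) (u + c) ≤ l := by
  unfold En
  have := dist_le X Y u (u + c - u) (t - u) (t + l - (u + c) - (t - u))
  omega

theorem adAns_le (X Y : ℕ → ℕ) {l g m D q v : ℕ} (hl : m * g ≤ l)
    (hv : v ∈ adAns X Y l g m D q) : v ≤ l := by
  obtain ⟨a, -, rfl⟩ := List.mem_map.mp hv
  refine En_le (le_trans (Nat.mul_le_mul_right g ?_) hl)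
  have h : a % (m + 1) < m + 1 := Nat.mod_lt a (Nat.succ_pos m)
  omega

theorem adCell_spec {E : Env} {s : State} {X Y : ℕ → ℕ} {z A q l g m D : ℕ} (hz : 58 ≤ z)
    (hA : 3 ≤ A) (h0 : s.arr 0 = X) (h1 : s.arr 1 = Y) (hq : s.reg z = q)
    (h50 : s.reg 50 = l) (h51 : s.reg 51 = g) (h52 : s.reg 52 = m) (h53 : s.reg 53 = D)
    (hl : m * g ≤ l) (hlR : l + 1 ≤ E.R) (hgR : l + g ≤ E.R) (hm : (m + 1) * (m + 1) ≤ E.R)
    (hi : q / D * l ≤ E.R) (hk : q % D * l + l ≤ E.R) :
    Spec E s (adCell z A)
      (30 + m * (60 + ((l + 1) * 14 + (m + 1) * (14 + g * (68 + l * 122)))))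
      (fun s' => s'.reg (z + 7) = (adAns X Y l g m D q).length ∧
        ∀ a, a < (adAns X Y l g m D q).length → s'.arr A a = (adAns X Y l g m D q).getD a 0) := by
  have hm1 : m + 1 ≤ E.R := by nlinarith
  have hA2 : A ≠ 2 := by omega
  have hA0 : A ≠ 0 := by omega
  have hA1 : A ≠ 1 := by omega
  have hqR : Bdd E s → q ≤ E.R := fun hb => by rw [← hq]; exact hb.reg z
  have hwr : ∀ r ∈ (strip A).wr, r < 58 := by
    intro r hr
    simp [strip, Prog.wr, dpRow, dpCell] at hr
    omega
  unfold adCell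
  refine Spec.set_seq (q / D) rfl (by simp [ediv, Expr.cost]) ?_ (fun hb => ?_) ?_
  · simp [hq, h53]
  · exact (Nat.div_le_self q D).trans (hqR hb)
  refine Spec.set_seq (q % D) rfl (by simp [ediv, emod, Expr.cost]) ?_ (fun hb => ?_) ?_
  · rw [emod_eval, reg_eval, reg_eval, State.setReg_reg, if_neg (by omega), State.setReg_reg,
      if_neg (by omega), hq, h53]
  · have := hb.reg z
    rw [State.setReg_reg, if_neg (by omega), hq] at this
    exact (Nat.mod_le q D).trans this
  refine Spec.set_seq (q / D * l) rfl (by simp [ediv, emod, emul, Expr.cost]) ?_ (fun _ => hi) ?_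
  · simp [h50]
  refine Spec.seq 2 (m * (60 + ((l + 1) * 14 + (m + 1) * (14 + g * (68 + l * 122))))) 6 0
    (fun s' => ∀ a < m * (m + 1), s'.arr A a = adVal X Y l g m D q a)
    (by simp [ediv, emod, emul, Expr.cost]) (by omega) ?_ ?_
  · refine Spec.mono (Spec.loop m (58 + ((l + 1) * 14 + (m + 1) * (14 + g * (68 + l * 122))))
      (fun ρ s' => ∀ a < ρ * (m + 1), s'.arr A a = adVal X Y l g m D q a) rfl (by decide)
      (by apply le_of_eq; ring) ?_ ?_ ?_ ?_) le_rfl (fun s' h => h)
    · simp [h52]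
    · intro _; omega
    · intro _ a ha; omega
    · intro ρ hρ s' hb hfr hI
      have wr_not : ∀ r, r = 50 ∨ r = 51 ∨ r = 52 ∨ r = 53 ∨ r = 54 ∨ r = 55 ∨ r = 41 →
          s'.reg r = (((s.setReg 54 (q / D)).setReg 55 (q % D)).setReg 41 (q / D * l)).reg r := by
        intro r hr
        apply hfr.reg
        simp [Prog.wr, strip, dpRow, dpCell]
        omega
      have e50 : s'.reg 50 = l := by rw [wr_not 50 (by simp)]; simpa using h50
      have e51 : s'.reg 51 = g := by rw [wr_not 51 (by simp)]; simpa using h51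
      have e52 : s'.reg 52 = m := by rw [wr_not 52 (by simp)]; simpa using h52
      have e55 : s'.reg 55 = q % D := by rw [wr_not 55 (by simp)]; simp
      have e41 : s'.reg 41 = q / D * l := by rw [wr_not 41 (by simp)]; simp
      have e0 : s'.arr 0 = X := by
        rw [hfr.arr 0 (by simp [Prog.wa, strip, dpRow, dpCell, hA0.symm])]; simpa using h0
      have e1 : s'.arr 1 = Y := by
        rw [hfr.arr 1 (by simp [Prog.wa, strip, dpRow, dpCell, hA1.symm])]; simpa using h1
      have hρg : ρ * g + g ≤ l := by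
        have : ρ * g + g ≤ m * g := by
          rw [← Nat.succ_mul]; exact Nat.mul_le_mul_right g (by omega)
        omega
      have hρm : ρ * (m + 1) ≤ E.R := le_trans (Nat.mul_le_mul_right _ (by omega)) hm
      refine Spec.set_seq (a := 58) (d := (l + 1) * 14 + (m + 1) * (14 + g * (68 + l * 122)))
        (q % D * l + ρ * g) rfl (by decide) ?_ (fun _ => by omega) ?_
      · simp [e50, e51, e55]
      refine Spec.set_seq (ρ * (m + 1)) rfl (by decide) ?_ (fun _ => hρm) ?_
      · simp [e52]
      refine Spec.mono (strip_spec (X := X) (Y := Y) (u := q % D * l + ρ * g) (t := q / D * l)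
        (l := l) (g := g) (m := m) (base := ρ * (m + 1)) hA ?_ ?_ ?_ ?_ ?_ ?_ ?_ ?_ hl hlR hgR
        hm1) ?_ ?_
      · simpa using e0
      · simpa using e1
      · simp
      · simpa using e41
      · simp
      · simpa using e50
      · simpa using e51
      · simpa using e52
      · simp only [eadd, emul, Expr.cost]
        omega
      · rintro s3 ⟨h3, h4⟩ a ha
        have hsplit : (ρ + 1) * (m + 1) = ρ * (m + 1) + (m + 1) := by ring
        rcases Nat.lt_or_ge a (ρ * (m + 1)) with h5 | h5
        · rw [h4 a h5]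
          simpa using hI a h5
        · obtain ⟨e, rfl⟩ := Nat.exists_eq_add_of_le h5
          have he : e < m + 1 := by omega
          rw [h3 e (by omega)]
          unfold adVal
          have q1 : (ρ * (m + 1) + e) / (m + 1) = ρ := by
            rw [Nat.add_comm, Nat.add_mul_div_right _ _ (Nat.succ_pos m), Nat.div_eq_of_lt he,
              Nat.zero_add]
          have q2 : (ρ * (m + 1) + e) % (m + 1) = e := by
            rw [Nat.add_comm, Nat.add_mul_mod_self_right, Nat.mod_eq_of_lt he]
          rw [q1, q2]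
  · intro s' hfr h
    have e52 : s'.reg 52 = m := by
      rw [hfr.reg 52 (by simp [Prog.wr, strip, dpRow, dpCell])]; simpa using h52
    have hmm : m * (m + 1) ≤ E.R := le_trans (Nat.mul_le_mul_right _ (by omega)) hm
    refine Spec.set (m * (m + 1)) rfl (by decide) ?_ (fun _ => hmm) ?_
    · simp [e52]
    · intro _
      rw [length_adAns]
      refine ⟨by simp, fun a ha => ?_⟩
      rw [adAns_getD X Y l g m D q ha]
      simpa using h a ha

theorem adCell_wr {z A : ℕ} : ∀ r ∈ (adCell z A).wr, (10 ≤ r ∧ r ≤ 20) ∨ (39 ≤ r ∧ r ≤ 49) ∨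
    (54 ≤ r ∧ r ≤ 56) ∨ r = z + 7 := by
  intro r hr
  simp [adCell, strip, Prog.wr, dpRow, dpCell] at hr
  omega

theorem adCell_wa {z A : ℕ} : ∀ r ∈ (adCell z A).wa, r = 2 ∨ r = A := by
  intro r hr
  simp [adCell, strip, Prog.wa, dpRow, dpCell] at hr
  omega

/-- The cell program in the form wanted by the oracle loop. -/
theorem adCell_oracle {E : Env} {X Y : ℕ → ℕ} {z A l g m D : ℕ} (hz : 58 ≤ z) (hA : 3 ≤ A)
    (hl : m * g ≤ l) (hlR : l + 1 ≤ E.R) (hgR : l + g ≤ E.R) (hm : (m + 1) * (m + 1) ≤ E.R)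
    (Inv : State → Prop)
    (hI : ∀ s, Inv s → s.arr 0 = X ∧ s.arr 1 = Y ∧ s.reg 50 = l ∧ s.reg 51 = g ∧
      s.reg 52 = m ∧ s.reg 53 = D)
    (hF : ∀ s s' : State, Inv s → (∀ r, ¬ (10 ≤ r ∧ r ≤ 20) → ¬ (39 ≤ r ∧ r ≤ 49) →
      ¬ (54 ≤ r ∧ r ≤ 56) → r ≠ z + 7 → s'.reg r = s.reg r) →
      (∀ j, j ≠ 2 → j ≠ A → s'.arr j = s.arr j) → Inv s')
    (s : State) (q : ℕ) (hs : Inv s) (hq : s.reg z = q) (hi : q / D * l ≤ E.R)
    (hk : q % D * l + l ≤ E.R) :
    Spec E s (adCell z A)
      (30 + m * (60 + ((l + 1) * 14 + (m + 1) * (14 + g * (68 + l * 122)))))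
      (fun s' => Inv s' ∧ s'.reg (z + 7) = (adAns X Y l g m D q).length ∧
        ∀ a, a < (adAns X Y l g m D q).length → s'.arr A a = (adAns X Y l g m D q).getD a 0) := by
  obtain ⟨h0, h1, h50, h51, h52, h53⟩ := hI s hs
  refine Spec.mono (adCell_spec hz hA h0 h1 hq h50 h51 h52 h53 hl hlR hgR hm hi hk).withFrame
    le_rfl ?_
  rintro s' ⟨hf, h⟩
  refine ⟨hF s s' hs (fun r r1 r2 r3 r4 => hf.reg r fun hr => ?_) (fun j j1 j2 => hf.arr j
    fun hj => ?_), h⟩
  · rcases adCell_wr r hr with h | h | h | h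
    · exact r1 h
    · exact r2 h
    · exact r3 h
    · exact r4 h
  · rcases adCell_wa j hj with h | h
    · exact j1 h
    · exact j2 h

/-- The time in a simple form, for `m g = l`. -/
theorem adCell_time {l g m : ℕ} (h : m * g = l) :
    30 + m * (60 + ((l + 1) * 14 + (m + 1) * (14 + g * (68 + l * 122)))) ≤
      500 * (m + 1) * ((l + g + m + 1) * (l + 1)) := by
  subst h
  nlinarith [Nat.zero_le (m * g), Nat.zero_le m, Nat.zero_le g, Nat.zero_le (m * (m * g)),
    Nat.zero_le (m * g * (m * g)), Nat.zero_le (m * (m * g * (m * g))), Nat.zero_le (m * m),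
    Nat.zero_le (m * m * m * g), Nat.zero_le (m * g * g), Nat.zero_le (m * m * g * g)]

end Vale.Agent.P315.H817
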