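import Vale.Agent.P315.H817.Fn

/-! From the clamped language to specifications. -/

set_option autoImplicit false

namespace Vale.Agent.P315.H817

open Vale.Agent.P315

/-- A clamped program as a specification: the time is bounded by the clamp of the loops and the
budget, the postcondition comes from the logic without budgets. -/
theorem HP.spec {E : Env} {T : ℕ} (p : HP) (hp : p.Ok E T) {s : State} {Q : State → Prop}
    (hQ : Bdd E s → Wp E.ρ p Q s) :
    Spec E s p.comp (p.sz * (s.reg 4 + 2) ^ p.depth + s.reg 5 * T) Q := by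
  intro hb
  have h := p.auto hp s hb
  refine ⟨hQ hb, h.bdd, ?_, h.top⟩
  have := h.time
  omega

/-- The sharp form: only the used part of the budget counts. -/
theorem HP.spec' {E : Env} {T : ℕ} (p : HP) (hp : p.Ok E T) {s : State} {Q : State → Prop}
    (hQ : Bdd E s → Wp E.ρ p Q s) {B : ℕ}
    (hB : ∀ s', Q s' → s.reg 5 ≤ s'.reg 5 + B) :
    Spec E s p.comp (p.sz * (s.reg 4 + 2) ^ p.depth + B * T) Q := by
  intro hb
  have h := p.auto hp s hb
  have hq : Q (p.comp.run E.ρ s) := hQ hb
  refine ⟨hq, h.bdd, ?_, h.top⟩
  have h1 := h.time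
  have h2 := Nat.mul_le_mul_right T (hB _ hq)
  rw [Nat.add_mul] at h2
  omega

end Vale.Agent.P315.H817
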