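import Vale.Agent.P315.H817.AdCell

/-! The cell program for the classes of small edit distance: one start, a given band. -/

set_option autoImplicit false

namespace Vale.Agent.P315.H817

open Vale.Agent.P315

/-- One start. Registers: `40` position `u`, `41` time `t`, `49` first address of the output in
array `A`, `50` length `l` of the row, `51` mesh, `52` number of mesh steps in a row, `57` half width of
the band. -/
def bstrip (A : ℕ) : Prog :=
  .seq (.set 10 (.reg 40))
  (.seq (.set 12 (esub (.reg 41) (.reg 40)))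
  (.seq (.set 13 (esub (esub (eadd (.reg 41) (.reg 50)) (.reg 40)) (.reg 12)))
  (.seq (.set 14 (.reg 57))
  (.seq (.loop 17 (eadd (.reg 13) (.lit 1))
    (.put 2 (.reg 17) (emin (.reg 17) (eadd (.reg 14) (.lit 1)))))
  (.loop 47 (eadd (.reg 52) (.lit 1))
    (.seq (.put A (eadd (.reg 49) (.reg 47))
      (.get 2 (esub (.reg 13) (emul (.reg 47) (.reg 51)))))
    (.loop 48 (.reg 51)
      (.seq (.set 15 (eadd (emul (.reg 47) (.reg 51)) (.reg 48))) dpRow))))))))

theorem cap_En {X Y : ℕ → ℕ} {t u l c k : ℕ} :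
    cap X Y u (t - u) k c (((t + l - u) - (t - u)) - c) =
      min (En X Y t u (t + l) (u + c)) (k + 1) := by
  unfold cap En
  rw [show u + c - u = c by omega,
    show (t + l - (u + c)) - (t - u) = ((t + l - u) - (t - u)) - c by omega]

theorem bstrip_spec {E : Env} {s : State} {X Y : ℕ → ℕ} {A u t l g m k base : ℕ} (hA : 3 ≤ A)
    (h0 : s.arr 0 = X) (h1 : s.arr 1 = Y) (h40 : s.reg 40 = u) (h41 : s.reg 41 = t)
    (h49 : s.reg 49 = base) (h50 : s.reg 50 = l) (h51 : s.reg 51 = g) (h52 : s.reg 52 = m) (h57 : s.reg 57 = k)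
    (hkR : k + 1 ≤ E.R)
    (hl : m * g ≤ l) (hlR : l + 1 ≤ E.R) (hgR : l + g ≤ E.R) (hm : m + 1 ≤ E.R) :
    Spec E s (bstrip A) (30 + ((l + 1) * 14 + (m + 1) * (14 + g * (68 + (2 * k + 1) * 122))))
      (fun s' => (∀ e ≤ m, s'.arr A (base + e) = min (En X Y t u (t + l) (u + e * g)) (k + 1)) ∧
        ∀ a, a < base → s'.arr A a = s.arr A a) := by
  unfold bstrip
  set ly := (t + l - u) - (t - u) with hly
  have hlyl : ly ≤ l := by omega
  have hA2 : A ≠ 2 := by omega
  have hA0 : A ≠ 0 := by omega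
  have hA1 : A ≠ 1 := by omega
  refine Spec.set_seq u rfl (by decide) ?_ (fun hb => ?_) ?_
  · simp [h40]
  · rw [← h40]; exact hb.reg 40
  refine Spec.set_seq (t - u) rfl (by decide) ?_ (fun hb => ?_) ?_
  · simp [h40, h41]
  · have := hb.reg 41
    simp [h41] at this
    omega
  refine Spec.set_seq ly rfl (by decide) ?_ (fun hb => by omega) ?_
  · simp [h40, h41, h50, hly]
  refine Spec.set_seq k rfl (by decide) ?_ (fun hb => by omega) ?_
  · simp [h57]
  refine Spec.seq 4 ((l + 1) * 14) 4 ((m + 1) * (14 + g * (68 + (2 * k + 1) * 122)))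
    (fun s' => ∀ j ≤ ly, s'.arr 2 j = cap X Y u (t - u) k 0 j) (by decide) le_rfl ?_ ?_
  · refine Spec.mono (Spec.loop (ly + 1) (12 + 0) (fun t' s' => ∀ j < t', s'.arr 2 j =
        cap X Y u (t - u) k 0 j) rfl (by decide) (Nat.mul_le_mul_right 14 (by omega)) ?_ ?_ ?_ ?_)
        le_rfl ?_
    · simp
    · intro _; omega
    · intro _ j hj; omega
    · intro t' ht s' hb hfr hI
      have g14 : s'.reg 14 = k := by rw [hfr.reg 14 (by decide)]; simp
      refine Spec.put t' (min t' (k + 1)) (by norm_num) rfl rfl (by decide) ?_ ?_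
        (fun _ => by omega) ?_
      · simp
      · simp [g14]
      · intro _ j hj
        by_cases hjt : j = t'
        · subst hjt; simp [cap_zero]
        · simp [hjt, hI j (by omega)]
    · intro s' h j hj; exact h j (by omega)
  intro s1 hfr1 hrow
  have f0 : s1.arr 0 = X := by rw [hfr1.arr 0 (by decide)]; simpa using h0
  have f1 : s1.arr 1 = Y := by rw [hfr1.arr 1 (by decide)]; simpa using h1
  have f10 : s1.reg 10 = u := by rw [hfr1.reg 10 (by decide)]; simp
  have f12 : s1.reg 12 = t - u := by rw [hfr1.reg 12 (by decide)]; simp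
  have f13 : s1.reg 13 = ly := by rw [hfr1.reg 13 (by decide)]; simp
  have f14 : s1.reg 14 = k := by rw [hfr1.reg 14 (by decide)]; simp
  have f49 : s1.reg 49 = base := by rw [hfr1.reg 49 (by decide)]; simpa using h49
  have f51 : s1.reg 51 = g := by rw [hfr1.reg 51 (by decide)]; simpa using h51
  have f52 : s1.reg 52 = m := by rw [hfr1.reg 52 (by decide)]; simpa using h52
  have fA : s1.arr A = s.arr A := by
    rw [hfr1.arr A (by simp [Prog.wa, hA2])]; simp
  refine Spec.mono (Spec.loop (m + 1) (12 + g * (68 + (2 * k + 1) * 122)) (fun τ s' =>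
      (∀ j ≤ ly, s'.arr 2 j = cap X Y u (t - u) k (τ * g) j) ∧
      (∀ e < τ, s'.arr A (base + e) = min (En X Y t u (t + l) (u + e * g)) (k + 1)) ∧
      ∀ a, a < base → s'.arr A a = s.arr A a) rfl (by decide)
      (by apply le_of_eq; ring) ?_ ?_ ?_ ?_) le_rfl ?_
  · simp [f52]
  · intro _; exact hm
  · intro _
    refine ⟨by simpa using hrow, fun e he => by omega, fun a _ => by rw [fA]⟩
  · rintro τ hτ s' hb hfr ⟨i1, i2, i3⟩
    have e0 : s'.arr 0 = X := by
      rw [hfr.arr 0 (by simp [Prog.wa, dpRow, dpCell, hA0.symm])]; exact f0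
    have e1 : s'.arr 1 = Y := by
      rw [hfr.arr 1 (by simp [Prog.wa, dpRow, dpCell, hA1.symm])]; exact f1
    have e10 : s'.reg 10 = u := by
      rw [hfr.reg 10 (by simp [Prog.wr, dpRow, dpCell])]; exact f10
    have e12 : s'.reg 12 = t - u := by
      rw [hfr.reg 12 (by simp [Prog.wr, dpRow, dpCell])]; exact f12
    have e13 : s'.reg 13 = ly := by
      rw [hfr.reg 13 (by simp [Prog.wr, dpRow, dpCell])]; exact f13
    have e14 : s'.reg 14 = k := by
      rw [hfr.reg 14 (by simp [Prog.wr, dpRow, dpCell])]; exact f14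
    have e49 : s'.reg 49 = base := by
      rw [hfr.reg 49 (by simp [Prog.wr, dpRow, dpCell])]; exact f49
    have e51 : s'.reg 51 = g := by
      rw [hfr.reg 51 (by simp [Prog.wr, dpRow, dpCell])]; exact f51
    have hc : τ * g ≤ l := le_trans (Nat.mul_le_mul_right g (by omega)) hl
    have hval : s'.arr 2 (ly - τ * g) = min (En X Y t u (t + l) (u + τ * g)) (k + 1) := by
      rw [i1 _ (by omega)]
      exact cap_En
    refine Spec.put_seq (a := 12) (d := g * (68 + (2 * k + 1) * 122)) (base + τ)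
      (min (En X Y t u (t + l) (u + τ * g)) (k + 1)) (by omega) rfl rfl (by decide) ?_ ?_
      (fun _ => (min_le_right _ _).trans hkR) ?_
    · simp [e49]
    · simp [e13, e51, hval]
    refine Spec.mono (Spec.loop g (66 + (2 * k + 1) * 122) (fun ι s'' =>
        ∀ j ≤ ly, s''.arr 2 j = cap X Y u (t - u) k (τ * g + ι) j) rfl (by decide)
        (by apply le_of_eq; ring) ?_ ?_ ?_ ?_).withFrame le_rfl ?_
    · simp [e51]
    · intro hb'
      have := hb'.reg 51
      simpa [e51] using this
    · intro _ j hj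
      rw [State.setArr_arr_ne _ _ _ hA2.symm]
      simpa using i1 j hj
    · intro ι hι s'' hb' hfr' hI
      refine Spec.set_seq (a := 66) (d := (2 * k + 1) * 122) (τ * g + ι) rfl (by decide) ?_
        (fun hb'' => ?_) ?_
      · have q47 : s''.reg 47 = τ := by
          rw [hfr'.reg 47 (by simp [Prog.wr, dpRow, dpCell])]; simp
        have q51 : s''.reg 51 = g := by
          rw [hfr'.reg 51 (by simp [Prog.wr, dpRow, dpCell])]; simpa using e51
        simp [q47, q51]
      · omega
      · refine Spec.mono (dpRow_spec (X := X) (Y := Y) (px := u) (py := t - u) (ly := ly)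
          (k := k) (i := τ * g + ι) ?_ ?_ ?_ ?_ ?_ ?_ ?_ hkR ?_) ?_ ?_
        · simp only [State.setReg_arr]
          rw [hfr'.arr 0 (by simp [Prog.wa, dpRow, dpCell]), State.setArr_arr_ne _ _ _ hA0.symm]
          exact e0
        · simp only [State.setReg_arr]
          rw [hfr'.arr 1 (by simp [Prog.wa, dpRow, dpCell]), State.setArr_arr_ne _ _ _ hA1.symm]
          exact e1
        · simp
          rw [hfr'.reg 10 (by simp [Prog.wr, dpRow, dpCell])]; simpa using e10
        · simp
          rw [hfr'.reg 12 (by simp [Prog.wr, dpRow, dpCell])]; simpa using e12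
        · simp
          rw [hfr'.reg 13 (by simp [Prog.wr, dpRow, dpCell])]; simpa using e13
        · simp
          rw [hfr'.reg 14 (by simp [Prog.wr, dpRow, dpCell])]; simpa using e14
        · simp
        · simpa using hI
        · have : min ly (2 * k + 1) ≤ 2 * k + 1 := min_le_right _ _
          have := Nat.mul_le_mul_right 122 this
          simp [Expr.cost, eadd, emul]
        · intro s3 h3 j hj
          rw [h3 j hj, Nat.add_assoc]
    · rintro s3 ⟨hf3, h3⟩
      have hA3 : s3.arr A = (s'.setReg 47 τ |>.setArr A (base + τ)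
          (min (En X Y t u (t + l) (u + τ * g)) (k + 1))).arr A := hf3.arr A (by
            simp [Prog.wa, dpRow, dpCell, hA2])
      refine ⟨fun j hj => ?_, fun e he => ?_, fun a ha => ?_⟩
      · rw [h3 j hj, show (τ + 1) * g = τ * g + g by ring]
      · rw [hA3, State.setArr_arr]
        by_cases het : e = τ
        · subst het; simp
        · rw [if_neg (by omega)]
          simpa using i2 e (by omega)
      · rw [hA3, State.setArr_arr, if_neg (by omega)]
        simpa using i3 a ha
  · rintro s' ⟨-, i2, i3⟩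
    exact ⟨fun e he => i2 e (by omega), i3⟩

/-- The class cell program: register `z` holds the query `q = (i D + a) D' + k`: row `i`, start
`a g`, half width `k g` of the band; output in array `A`, its length in register `z + 7`.
Registers: `50` length `l` of the rows, `51` mesh `g`, `52` number `m` of mesh steps in a row,
`53` the number `D`, `58` the number `D'`. -/
def clCell (z A : ℕ) : Prog :=
  .seq (.set 57 (emul (emod (.reg z) (.reg 58)) (.reg 51)))
  (.seq (.set 56 (ediv (.reg z) (.reg 58)))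
  (.seq (.set 41 (emul (ediv (.reg 56) (.reg 53)) (.reg 50)))
  (.seq (.set 40 (emul (emod (.reg 56) (.reg 53)) (.reg 51)))
  (.seq (.set 49 (.lit 0))
  (.seq (bstrip A)
  (.set (z + 7) (eadd (.reg 52) (.lit 1))))))))

/-- Entry `e` of the answer to the query `q`. -/
def clVal (X Y : ℕ → ℕ) (l g D D' q e : ℕ) : ℕ :=
  min (En X Y (q / D' / D * l) (q / D' % D * g) (q / D' / D * l + l) (q / D' % D * g + e * g))
    (q % D' * g + 1)

/-- The answer to the query `q`. -/
def clAns (X Y : ℕ → ℕ) (l g m D D' q : ℕ) : List ℕ :=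
  (List.range (m + 1)).map (clVal X Y l g D D' q)

theorem length_clAns (X Y : ℕ → ℕ) (l g m D D' q : ℕ) :
    (clAns X Y l g m D D' q).length = m + 1 := by
  simp [clAns]

theorem clAns_getD (X Y : ℕ → ℕ) (l g m D D' q : ℕ) {a : ℕ} (ha : a < m + 1) :
    (clAns X Y l g m D D' q).getD a 0 = clVal X Y l g D D' q a := by
  rw [List.getD_eq_getElem _ _ (by simpa [clAns] using ha)]
  simp [clAns]

theorem clAns_le (X Y : ℕ → ℕ) {l g m D D' q v : ℕ} (hv : v ∈ clAns X Y l g m D D' q) :
    v ≤ q % D' * g + 1 := by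
  obtain ⟨a, -, rfl⟩ := List.mem_map.mp hv
  exact min_le_right _ _

theorem clAns_le' (X Y : ℕ → ℕ) {l g m D D' q v : ℕ} (hl : m * g ≤ l)
    (hv : v ∈ clAns X Y l g m D D' q) : v ≤ l := by
  obtain ⟨a, ha, rfl⟩ := List.mem_map.mp hv
  refine (min_le_left _ _).trans (En_le (le_trans (Nat.mul_le_mul_right g ?_) hl))
  simpa [Nat.lt_succ_iff] using ha

theorem clCell_spec {E : Env} {s : State} {X Y : ℕ → ℕ} {z A q l g m D D' : ℕ} (hz : 59 ≤ z)
    (hA : 3 ≤ A) (h0 : s.arr 0 = X) (h1 : s.arr 1 = Y) (hq : s.reg z = q)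
    (h50 : s.reg 50 = l) (h51 : s.reg 51 = g) (h52 : s.reg 52 = m) (h53 : s.reg 53 = D)
    (h58 : s.reg 58 = D') (hl : m * g ≤ l) (hlR : l + 1 ≤ E.R) (hgR : l + g ≤ E.R)
    (hm : m + 1 ≤ E.R) (hi : q / D' / D * l ≤ E.R) (ha : q / D' % D * g ≤ E.R)
    (hk : q % D' * g + 1 ≤ E.R) :
    Spec E s (clCell z A)
      (80 + ((l + 1) * 14 + (m + 1) * (14 + g * (68 + (2 * (q % D' * g) + 1) * 122))))
      (fun s' => s'.reg (z + 7) = (clAns X Y l g m D D' q).length ∧
        ∀ a, a < (clAns X Y l g m D D' q).length →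
          s'.arr A a = (clAns X Y l g m D D' q).getD a 0) := by
  have hqR : Bdd E s → q ≤ E.R := fun hb => by rw [← hq]; exact hb.reg z
  unfold clCell
  refine Spec.set_seq (q % D' * g) rfl (by simp [emod, emul, Expr.cost]) ?_ (fun _ => by omega) ?_
  · simp [hq, h58, h51]
  refine Spec.set_seq (q / D') rfl (by simp [ediv, emod, emul, Expr.cost]) ?_ (fun hb => ?_) ?_
  · rw [ediv_eval, reg_eval, reg_eval, State.setReg_reg, if_neg (by omega), State.setReg_reg,
      if_neg (by omega), hq, h58]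
  · have := hb.reg z
    rw [State.setReg_reg, if_neg (by omega), hq] at this
    exact (Nat.div_le_self q D').trans this
  refine Spec.set_seq (q / D' / D * l) rfl (by simp [ediv, emod, emul, Expr.cost]) ?_
    (fun _ => hi) ?_
  · simp [h50, h53]
  refine Spec.set_seq (q / D' % D * g) rfl (by simp [ediv, emod, emul, Expr.cost]) ?_
    (fun _ => ha) ?_
  · simp [h51, h53]
  refine Spec.set_seq 0 rfl (by simp [ediv, emod, emul, Expr.cost]) ?_ (fun _ => by omega) ?_
  · simp
  refine Spec.seq 30 ((l + 1) * 14 + (m + 1) * (14 + g * (68 + (2 * (q % D' * g) + 1) * 122))) 4 0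
    (fun s' => ∀ e ≤ m, s'.arr A e = clVal X Y l g D D' q e)
    (by simp [ediv, emod, emul, Expr.cost]) (by omega) ?_ ?_
  · refine Spec.mono (bstrip_spec (X := X) (Y := Y) (u := q / D' % D * g) (t := q / D' / D * l)
      (l := l) (g := g) (m := m) (k := q % D' * g) (base := 0) hA ?_ ?_ ?_ ?_ ?_ ?_ ?_ ?_ ?_ hk hl
      hlR hgR hm) le_rfl ?_
    · simpa using h0
    · simpa using h1
    · simp
    · simp
    · simp
    · simpa using h50
    · simpa using h51
    · simpa using h52
    · simp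
    · rintro s' ⟨h3, -⟩ e he
      have := h3 e he
      rw [Nat.zero_add] at this
      rw [this]
      rfl
  · intro s' hfr h
    have e52 : s'.reg 52 = m := by
      rw [hfr.reg 52 (by simp [Prog.wr, bstrip, dpRow, dpCell])]; simpa using h52
    refine Spec.set (m + 1) rfl (by simp [eadd, Expr.cost]) ?_ (fun _ => hm) ?_
    · simp [e52]
    · intro _
      rw [length_clAns]
      refine ⟨by simp, fun a ha' => ?_⟩
      rw [clAns_getD X Y l g m D D' q ha']
      simpa using h a (by omega)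

theorem clCell_wr {z A : ℕ} : ∀ r ∈ (clCell z A).wr, (10 ≤ r ∧ r ≤ 20) ∨ (39 ≤ r ∧ r ≤ 49) ∨
    (54 ≤ r ∧ r ≤ 57) ∨ r = z + 7 := by
  intro r hr
  simp [clCell, bstrip, Prog.wr, dpRow, dpCell] at hr
  omega

theorem clCell_wa {z A : ℕ} : ∀ r ∈ (clCell z A).wa, r = 2 ∨ r = A := by
  intro r hr
  simp [clCell, bstrip, Prog.wa, dpRow, dpCell] at hr
  omega

/-- The class cell program in the form wanted by the oracle loop; `B` bounds the band. -/
theorem clCell_oracle {E : Env} {X Y : ℕ → ℕ} {z A l g m D D' B : ℕ} (hz : 59 ≤ z) (hA : 3 ≤ A)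
    (hl : m * g ≤ l) (hlR : l + 1 ≤ E.R) (hgR : l + g ≤ E.R) (hm : m + 1 ≤ E.R)
    (hB : B + 1 ≤ E.R) (Inv : State → Prop)
    (hI : ∀ s, Inv s → s.arr 0 = X ∧ s.arr 1 = Y ∧ s.reg 50 = l ∧ s.reg 51 = g ∧
      s.reg 52 = m ∧ s.reg 53 = D ∧ s.reg 58 = D')
    (hF : ∀ s s' : State, Inv s → (∀ r, ¬ (10 ≤ r ∧ r ≤ 20) → ¬ (39 ≤ r ∧ r ≤ 49) →
      ¬ (54 ≤ r ∧ r ≤ 57) → r ≠ z + 7 → s'.reg r = s.reg r) →
      (∀ j, j ≠ 2 → j ≠ A → s'.arr j = s.arr j) → Inv s')
    (s : State) (q : ℕ) (hs : Inv s) (hq : s.reg z = q) (hi : q / D' / D * l ≤ E.R)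
    (ha : q / D' % D * g ≤ E.R) (hk : q % D' * g ≤ B) :
    Spec E s (clCell z A)
      (80 + ((l + 1) * 14 + (m + 1) * (14 + g * (68 + (2 * B + 1) * 122))))
      (fun s' => Inv s' ∧ s'.reg (z + 7) = (clAns X Y l g m D D' q).length ∧
        ∀ a, a < (clAns X Y l g m D D' q).length →
          s'.arr A a = (clAns X Y l g m D D' q).getD a 0) := by
  obtain ⟨h0, h1, h50, h51, h52, h53, h58⟩ := hI s hs
  refine Spec.mono (clCell_spec hz hA h0 h1 hq h50 h51 h52 h53 h58 hl hlR hgR hm hi ha
    (by omega)).withFrame ?_ ?_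
  · have : g * (68 + (2 * (q % D' * g) + 1) * 122) ≤ g * (68 + (2 * B + 1) * 122) :=
      Nat.mul_le_mul_left g (by omega)
    have h2 : (m + 1) * (14 + g * (68 + (2 * (q % D' * g) + 1) * 122)) ≤
        (m + 1) * (14 + g * (68 + (2 * B + 1) * 122)) := Nat.mul_le_mul_left _ (by omega)
    omega
  rintro s' ⟨hf, h⟩
  refine ⟨hF s s' hs (fun r r1 r2 r3 r4 => hf.reg r fun hr => ?_) (fun j j1 j2 => hf.arr j
    fun hj => ?_), h⟩
  · rcases clCell_wr r hr with h | h | h | h
    · exact r1 h
    · exact r2 h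
    · exact r3 h
    · exact r4 h
  · rcases clCell_wa j hj with h | h
    · exact j1 h
    · exact j2 h

end Vale.Agent.P315.H817
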