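import Vale.Agent.P315.Logic

/-! Programs whose running time and word size are bounded automatically: every stored number is
clamped by register `3`, every loop by register `4`, and the expensive subprograms are guarded by
the budget register `5` (a call of weight `w`, the content of register `9`, uses `w + 1` units of
the budget); register `6` is a scratch register for random words. -/

set_option autoImplicit false

namespace Vale.Agent.P315.H817

open Vale.Agent.P315

/-- Admissible expressions: constants at most `R`, no use of register `6`, and input symbols are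
only compared with each other. -/
def Okx (R : ℕ) : Expr → Prop
  | .lit c => c ≤ R
  | .reg i => i ≠ 6
  | .get j e => 2 ≤ j ∧ Okx R e
  | .op o e e' => match o, e, e' with
    | .eq, .get _ a, .get _ a' => Okx R a ∧ Okx R a'
    | _, e, e' => Okx R e ∧ Okx R e'

theorem Okx_op {R : ℕ} {o : Op} {e e' : Expr}
    (hcmp : ¬ ∃ j a j' a', o = .eq ∧ e = .get j a ∧ e' = .get j' a') :
    Okx R (.op o e e') ↔ Okx R e ∧ Okx R e' := by
  cases o <;> try exact Iff.rfl
  cases e <;> try exact Iff.rfl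
  cases e' <;> try exact Iff.rfl
  exact absurd ⟨_, _, _, _, rfl, rfl, rfl⟩ hcmp

theorem Okx_op' {R : ℕ} {o : Op} {e e' : Expr} (h : Okx R e) (h' : Okx R e') :
    Okx R (.op o e e') := by
  cases o <;> try exact ⟨h, h'⟩
  cases e <;> try exact ⟨h, h'⟩
  cases e' <;> try exact ⟨h, h'⟩
  exact ⟨h.2, h'.2⟩

/-- Values of admissible expressions do not depend on register `6`. -/
theorem Okx_congr {R : ℕ} {s s' : State} (hr : ∀ i, i ≠ 6 → s.reg i = s'.reg i)
    (ha : s.arr = s'.arr) : ∀ e : Expr, Okx R e → e.eval s = e.eval s' ∧ e.top s = e.top s' := by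
  suffices H : ∀ n : ℕ, ∀ e : Expr, e.cost ≤ n → Okx R e →
      e.eval s = e.eval s' ∧ e.top s = e.top s' from fun e => H e.cost e le_rfl
  intro n
  induction n with
  | zero => intro e he; have := e.one_le_cost; omega
  | succ n ih =>
    intro e hn hok
    cases e with
    | lit c => exact ⟨rfl, rfl⟩
    | reg i => exact ⟨hr i hok, hr i hok⟩
    | get j e =>
      have hok' : 2 ≤ j ∧ Okx R e := hok
      simp only [Expr.cost] at hn
      obtain ⟨h1, h2⟩ := ih e (by omega) hok'.2
      simp only [Expr.eval, Expr.top, h1, h2, ha, and_self]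
    | op o e e' =>
      simp only [Expr.cost] at hn
      have c1 := e.one_le_cost
      have c2 := e'.one_le_cost
      by_cases hcmp : ∃ j a j' a', o = .eq ∧ e = .get j a ∧ e' = .get j' a'
      · obtain ⟨j, a, j', a', rfl, rfl, rfl⟩ := hcmp
        have hok' : Okx R a ∧ Okx R a' := hok
        simp only [Expr.cost] at hn
        obtain ⟨h1, h2⟩ := ih a (by omega) hok'.1
        obtain ⟨h3, h4⟩ := ih a' (by omega) hok'.2
        simp only [Expr.eval, Expr.top, h1, h2, h3, h4, ha, and_self]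
      · have hok' := (Okx_op hcmp).mp hok
        obtain ⟨h1, h2⟩ := ih e (by omega) hok'.1
        obtain ⟨h3, h4⟩ := ih e' (by omega) hok'.2
        simp only [Expr.eval, Expr.top, h1, h2, h3, h4, and_self]

theorem Okx_top {E : Env} {s : State} (hb : Bdd E s) : ∀ e : Expr, Okx E.R e → e.cost ≤ E.S →
    e.top s < E.N ∧ e.eval s ≤ E.R ^ e.cost := by
  have hR := E.hR
  have hpow : ∀ {m : ℕ}, m ≤ E.S → E.R ^ m < E.N := fun {m} hm =>
    lt_of_le_of_lt (Nat.pow_le_pow_right (by omega) hm) E.hN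
  have hone : ∀ m : ℕ, 1 ≤ E.R ^ m := fun m => Nat.one_le_pow _ _ (by omega)
  have hRle : ∀ {m : ℕ}, 1 ≤ m → E.R ≤ E.R ^ m := fun {m} hm => by
    calc E.R = E.R ^ 1 := (pow_one _).symm
      _ ≤ E.R ^ m := Nat.pow_le_pow_right (by omega) hm
  suffices H : ∀ n : ℕ, ∀ e : Expr, e.cost ≤ n → Okx E.R e → e.cost ≤ E.S →
      e.top s < E.N ∧ e.eval s ≤ E.R ^ e.cost from fun e => H e.cost e le_rfl
  intro n
  induction n with
  | zero => intro e he; have := e.one_le_cost; omega
  | succ n ih =>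
    intro e hn hok hS
    cases e with
    | lit c =>
      have hc : c ≤ E.R := hok
      refine ⟨lt_of_le_of_lt (le_trans hc (hRle (m := 1) le_rfl)) (hpow (by simpa [Expr.cost] using hS)),
        ?_⟩
      simpa [Expr.eval, Expr.cost] using hc
    | reg i =>
      have h1 := hb.reg i
      refine ⟨lt_of_le_of_lt h1 E.R_lt_N, ?_⟩
      simpa [Expr.eval, Expr.cost] using h1
    | get j e =>
      have hok' : 2 ≤ j ∧ Okx E.R e := hok
      simp only [Expr.cost] at hn hS ⊢
      obtain ⟨t1, t2⟩ := ih e (by omega) hok'.2 (by omega)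
      have h2 := hb.arr j hok'.1 (e.eval s)
      refine ⟨max_lt t1 (lt_of_le_of_lt h2 E.R_lt_N), ?_⟩
      exact h2.trans (hRle (by omega))
    | op o e e' =>
      simp only [Expr.cost] at hn hS ⊢
      have c1 := e.one_le_cost
      have c2 := e'.one_le_cost
      by_cases hcmp : ∃ j a j' a', o = .eq ∧ e = .get j a ∧ e' = .get j' a'
      · obtain ⟨j, a, j', a', rfl, rfl, rfl⟩ := hcmp
        have hok' : Okx E.R a ∧ Okx E.R a' := hok
        simp only [Expr.cost] at hn hS ⊢
        obtain ⟨t1, t2⟩ := ih a (by omega) hok'.1 (by omega)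
        obtain ⟨u1, u2⟩ := ih a' (by omega) hok'.2 (by omega)
        have hg : ∀ (k : ℕ) (b : Expr), s.arr k (b.eval s) < E.N := by
          intro k b
          rcases Nat.lt_or_ge k 2 with hk | hk
          · interval_cases k
            · exact hb.x _
            · exact hb.y _
          · exact lt_of_le_of_lt (hb.arr k hk _) E.R_lt_N
        have h6 : Op.eval .eq (s.arr j (a.eval s)) (s.arr j' (a'.eval s)) ≤ 1 := by
          simp only [Op.eval]; split_ifs <;> omega
        refine ⟨max_lt (max_lt (max_lt t1 (hg j a)) (max_lt u1 (hg j' a'))) ?_, ?_⟩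
        · exact lt_of_le_of_lt h6 (lt_of_lt_of_le (by omega) (le_of_lt E.R_lt_N))
        · exact h6.trans (hone _)
      · have hok' := (Okx_op hcmp).mp hok
        obtain ⟨t1, t2⟩ := ih e (by omega) hok'.1 (by omega)
        obtain ⟨u1, u2⟩ := ih e' (by omega) hok'.2 (by omega)
        have h3 := Op.eval_le E.hR o t2 u2
        exact ⟨max_lt (max_lt t1 u1) (lt_of_le_of_lt h3 (hpow hS)), h3⟩

/-- The language. `set`, `put`, `rnd` store clamped numbers, `loop` is clamped, `big w q` puts the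
weight `w` into register `9` and runs the expensive program `q` if the budget allows it. -/
inductive HP
  | set (i : ℕ) (e : Expr)
  | put (j : ℕ) (e e' : Expr)
  | rnd (i : ℕ) (e : Expr)
  | seq (p q : HP)
  | ite (e : Expr) (p q : HP)
  | loop (i : ℕ) (e : Expr) (p : HP)
  | big (w : Expr) (q : Prog)

/-- Translation to the machine language. -/
def HP.comp : HP → Prog
  | .set i e => .set i (emin e (.reg 3))
  | .put j e e' => .put j e (emin e' (.reg 3))
  | .rnd i e => .seq (.rand 6) (.seq (.set i (emin (.op .mod (.reg 6) e) (.reg 3)))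
      (.set 6 (.lit 0)))
  | .seq p q => .seq p.comp q.comp
  | .ite e p q => .ite e p.comp q.comp
  | .loop i e p => .loop i (emin e (.reg 4)) p.comp
  | .big w q => .seq (.set 9 (emin w (.reg 3))) (.ite (.op .lt (.reg 9) (.reg 5))
      (.seq (.set 5 (.op .sub (.reg 5) (.op .add (.reg 9) (.lit 1)))) q) (.set 9 (.lit 0)))

/-- Size. -/
def HP.sz : HP → ℕ
  | .set _ e => 2 * e.cost + 4
  | .put _ e e' => e.cost + 2 * e'.cost + 4
  | .rnd _ e => 2 * e.cost + 12
  | .seq p q => p.sz + q.sz
  | .ite e p q => e.cost + 1 + p.sz + q.sz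
  | .loop _ e p => 2 * e.cost + 6 + p.sz
  | .big w _ => 2 * w.cost + 20

/-- Nesting depth of loops. -/
def HP.depth : HP → ℕ
  | .set _ _ => 0
  | .put _ _ _ => 0
  | .rnd _ _ => 0
  | .seq p q => max p.depth q.depth
  | .ite _ p q => max p.depth q.depth
  | .loop _ _ p => p.depth + 1
  | .big _ _ => 0

/-- Registers that a program may write. -/
def wok (i : ℕ) : Prop := i ≠ 3 ∧ i ≠ 4 ∧ i ≠ 5 ∧ i ≠ 6

/-- The requirement on an expensive program: the number of steps is at most `T` times the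
weight (plus one) in register `9`. -/
structure BigOk (E : Env) (T : ℕ) (q : Prog) : Prop where
  run : ∀ s, Bdd E s → Bdd E (q.run E.ρ s) ∧ q.time E.ρ s ≤ T * (s.reg 9 + 1) ∧
    q.top E.ρ s < E.N
  wr3 : 3 ∉ q.wr
  wr4 : 4 ∉ q.wr
  wr5 : 5 ∉ q.wr

/-- Well-formed programs. -/
def HP.Ok (E : Env) (T : ℕ) : HP → Prop
  | .set i e => wok i ∧ Okx E.R e ∧ 2 * e.cost + 10 ≤ E.S
  | .put j e e' => 2 ≤ j ∧ Okx E.R e ∧ Okx E.R e' ∧ 2 * e'.cost + 10 ≤ E.S ∧ e.cost ≤ E.S
  | .rnd i e => wok i ∧ Okx E.R e ∧ 2 * e.cost + 10 ≤ E.S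
  | .seq p q => p.Ok E T ∧ q.Ok E T
  | .ite e p q => Okx E.R e ∧ e.cost ≤ E.S ∧ p.Ok E T ∧ q.Ok E T
  | .loop i e p => wok i ∧ Okx E.R e ∧ 2 * e.cost + 10 ≤ E.S ∧ p.Ok E T
  | .big w q => Okx E.R w ∧ 2 * w.cost + 10 ≤ E.S ∧ BigOk E T q

theorem emin_ok {R : ℕ} {e : Expr} {i : ℕ} (hi : i ≠ 6) (h : Okx R e) :
    Okx R (emin e (.reg i)) := by
  have h1 : Okx R (.reg i) := hi
  exact Okx_op' h (Okx_op' h h1)

theorem emin_cost (e : Expr) (i : ℕ) : (emin e (.reg i)).cost = 2 * e.cost + 3 := by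
  simp only [emin, Expr.cost]; omega

/-- Facts kept by every program. -/
structure Res (E : Env) (T : ℕ) (p : Prog) (sz L d : ℕ) (s : State) : Prop where
  bdd : Bdd E (p.run E.ρ s)
  r3 : (p.run E.ρ s).reg 3 = s.reg 3
  r4 : (p.run E.ρ s).reg 4 = s.reg 4
  r5 : (p.run E.ρ s).reg 5 ≤ s.reg 5
  time : p.time E.ρ s + (p.run E.ρ s).reg 5 * T ≤ sz * (L + 2) ^ d + s.reg 5 * T
  top : p.top E.ρ s < E.N

theorem HP.auto {E : Env} {T : ℕ} (p : HP) : ∀ (_ : p.Ok E T) (s : State), Bdd E s →
    Res E T p.comp p.sz (s.reg 4) p.depth s := by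
  have hR := E.hR
  have hpow : ∀ {m : ℕ}, m ≤ E.S → E.R ^ m < E.N := fun {m} hm =>
    lt_of_le_of_lt (Nat.pow_le_pow_right (by omega) hm) E.hN
  induction p with
  | set i e =>
    rintro ⟨⟨h3, h4, h5, h6⟩, he, hc⟩ s hb
    have hv : (emin e (.reg 3)).eval s ≤ E.R := by
      rw [emin_eval]; exact (min_le_right _ _).trans (hb.reg 3)
    obtain ⟨t1, t2⟩ := Okx_top hb (emin e (.reg 3)) (emin_ok (by decide) he)
      (by rw [emin_cost]; omega)
    refine ⟨hb.setReg i hv, ?_, ?_, ?_, ?_, t1⟩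
    · simp [HP.comp, Prog.run, Ne.symm h3]
    · simp [HP.comp, Prog.run, Ne.symm h4]
    · simp [HP.comp, Prog.run, Ne.symm h5]
    · simp only [HP.comp, Prog.run, Prog.time, HP.sz, HP.depth, pow_zero, mul_one, emin_cost,
        State.setReg_reg, if_neg (Ne.symm h5)]
      omega
  | put j e e' =>
    rintro ⟨hj, he, he', hc, hc'⟩ s hb
    have hv : (emin e' (.reg 3)).eval s ≤ E.R := by
      rw [emin_eval]; exact (min_le_right _ _).trans (hb.reg 3)
    obtain ⟨t1, t2⟩ := Okx_top hb (emin e' (.reg 3)) (emin_ok (by decide) he')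
      (by rw [emin_cost]; omega)
    obtain ⟨t3, t4⟩ := Okx_top hb e he hc'
    refine ⟨hb.setArr hj _ hv, rfl, rfl, le_rfl, ?_, max_lt t3 t1⟩
    simp only [HP.comp, Prog.run, Prog.time, HP.sz, HP.depth, pow_zero, mul_one, emin_cost,
        State.setArr_reg]
    omega
  | rnd i e =>
    rintro ⟨⟨h3, h4, h5, h6⟩, he, hc⟩ s hb
    set s1 : State := { s.setReg 6 (E.ρ s.coins) with coins := s.coins + 1 } with hs1
    have hreg : ∀ k, k ≠ 6 → s1.reg k = s.reg k := by
      intro k hk; simp [hs1, hk]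
    have harr : s1.arr = s.arr := rfl
    have hcg := Okx_congr (R := E.R) (s := s1) (s' := s) hreg harr e he
    have hr6 : s1.reg 6 = E.ρ s.coins := by simp [hs1]
    have hlt : E.ρ s.coins < E.N := E.hρ _
    obtain ⟨t1, t2⟩ := Okx_top hb e he (by omega)
    have hmod : (Expr.op .mod (.reg 6) e).eval s1 ≤ E.ρ s.coins := by
      simp only [Expr.eval, Op.eval, hr6]; exact Nat.mod_le _ _
    have hv : (emin (.op .mod (.reg 6) e) (.reg 3)).eval s1 ≤ E.R := by
      rw [emin_eval]
      refine (min_le_right _ _).trans ?_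
      simp only [Expr.eval]
      rw [hreg 3 (by decide)]
      exact hb.reg 3
    set v := (emin (.op .mod (.reg 6) e) (.reg 3)).eval s1 with hvdef
    have hrun : (HP.rnd i e).comp.run E.ρ s = (s1.setReg i v).setReg 6 0 := rfl
    have hb' : Bdd E ((s1.setReg i v).setReg 6 0) := by
      refine ⟨fun k => ?_, hb.arr, hb.x, hb.y⟩
      by_cases hk : k = 6
      · subst hk; simp
      · by_cases hk' : k = i
        · subst hk'; simp [hk, hv]
        · simp only [State.setReg_reg, if_neg hk, if_neg hk']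
          rw [hreg k hk]; exact hb.reg k
    refine ⟨hb', ?_, ?_, ?_, ?_, ?_⟩
    · rw [hrun]; simp [hs1, Ne.symm h3]
    · rw [hrun]; simp [hs1, Ne.symm h4]
    · rw [hrun]; simp [hs1, Ne.symm h5]
    · have hreg5 : ((HP.rnd i e).comp.run E.ρ s).reg 5 = s.reg 5 := by
        rw [hrun]; simp [hs1, Ne.symm h5]
      rw [hreg5]
      simp only [HP.comp, Prog.time, HP.sz, HP.depth, pow_zero, mul_one, emin_cost, Expr.cost]
      omega
    · have e1 : (HP.rnd i e).comp.top E.ρ s = max (E.ρ s.coins)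
          (max ((emin (.op .mod (.reg 6) e) (.reg 3)).top s1) 0) := rfl
      rw [e1]
      refine max_lt hlt (max_lt ?_ (lt_of_le_of_lt (Nat.zero_le _) hlt))
      simp only [emin, Expr.top, Expr.eval, Op.eval, hr6, hcg.1, hcg.2]
      have h7 : s1.reg 3 < E.N := by rw [hreg 3 (by decide)]; exact lt_of_le_of_lt (hb.reg 3) E.R_lt_N
      have h8 : E.ρ s.coins % e.eval s ≤ E.ρ s.coins := Nat.mod_le _ _
      simp only [max_lt_iff]
      refine ⟨⟨⟨⟨hlt, t1⟩, by omega⟩, ⟨⟨⟨hlt, t1⟩, by omega⟩, h7⟩, by omega⟩, by omega⟩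
  | seq p q ihp ihq =>
    rintro ⟨hp, hq⟩ s hb
    have a := ihp hp s hb
    have b := ihq hq _ a.bdd
    have e3 : (HP.seq p q).comp.run E.ρ s = q.comp.run E.ρ (p.comp.run E.ρ s) := rfl
    refine ⟨b.bdd, by rw [e3, b.r3, a.r3], by rw [e3, b.r4, a.r4], b.r5.trans a.r5, ?_,
      max_lt a.top b.top⟩
    have h1 := a.time
    have h2 := b.time
    rw [a.r4] at h2
    rw [e3]
    have e4 : (HP.seq p q).comp.time E.ρ s = p.comp.time E.ρ s +
      q.comp.time E.ρ (p.comp.run E.ρ s) := rfl
    rw [e4]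
    have h3 : p.sz * (s.reg 4 + 2) ^ p.depth ≤ p.sz * (s.reg 4 + 2) ^ (HP.seq p q).depth :=
      Nat.mul_le_mul_left _ (Nat.pow_le_pow_right (by omega) (le_max_left _ _))
    have h4 : q.sz * (s.reg 4 + 2) ^ q.depth ≤ q.sz * (s.reg 4 + 2) ^ (HP.seq p q).depth :=
      Nat.mul_le_mul_left _ (Nat.pow_le_pow_right (by omega) (le_max_right _ _))
    have h5 : (HP.seq p q).sz * (s.reg 4 + 2) ^ (HP.seq p q).depth =
      p.sz * (s.reg 4 + 2) ^ (HP.seq p q).depth + q.sz * (s.reg 4 + 2) ^ (HP.seq p q).depth := by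
      simp only [HP.sz]; ring
    rw [h5]
    omega
  | ite e p q ihp ihq =>
    rintro ⟨he, hc, hp, hq⟩ s hb
    obtain ⟨t1, t2⟩ := Okx_top hb e he hc
    have hX : 1 ≤ (s.reg 4 + 2) ^ (HP.ite e p q).depth := Nat.one_le_pow _ _ (by omega)
    have h3 : p.sz * (s.reg 4 + 2) ^ p.depth ≤ p.sz * (s.reg 4 + 2) ^ (HP.ite e p q).depth :=
      Nat.mul_le_mul_left _ (Nat.pow_le_pow_right (by omega) (le_max_left _ _))
    have h4 : q.sz * (s.reg 4 + 2) ^ q.depth ≤ q.sz * (s.reg 4 + 2) ^ (HP.ite e p q).depth :=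
      Nat.mul_le_mul_left _ (Nat.pow_le_pow_right (by omega) (le_max_right _ _))
    have h5 : (HP.ite e p q).sz * (s.reg 4 + 2) ^ (HP.ite e p q).depth =
      (e.cost + 1) * (s.reg 4 + 2) ^ (HP.ite e p q).depth +
      p.sz * (s.reg 4 + 2) ^ (HP.ite e p q).depth +
      q.sz * (s.reg 4 + 2) ^ (HP.ite e p q).depth := by
      simp only [HP.sz]; ring
    have h6 : (e.cost + 1) * 1 ≤ (e.cost + 1) * (s.reg 4 + 2) ^ (HP.ite e p q).depth :=
      Nat.mul_le_mul_left _ hX
    by_cases h : e.eval s = 0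
    · have b := ihq hq s hb
      have e3 : (HP.ite e p q).comp.run E.ρ s = q.comp.run E.ρ s := by
        simp [HP.comp, Prog.run, h]
      have e4 : (HP.ite e p q).comp.time E.ρ s = e.cost + 1 + q.comp.time E.ρ s := by
        simp [HP.comp, Prog.time, h]
      have e5 : (HP.ite e p q).comp.top E.ρ s = max (e.top s) (q.comp.top E.ρ s) := by
        simp [HP.comp, Prog.top, h]
      refine ⟨by rw [e3]; exact b.bdd, by rw [e3]; exact b.r3, by rw [e3]; exact b.r4,
        by rw [e3]; exact b.r5, ?_, by rw [e5]; exact max_lt t1 b.top⟩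
      have h1 := b.time
      rw [e3, e4, h5]
      omega
    · have b := ihp hp s hb
      have e3 : (HP.ite e p q).comp.run E.ρ s = p.comp.run E.ρ s := by
        simp [HP.comp, Prog.run, h]
      have e4 : (HP.ite e p q).comp.time E.ρ s = e.cost + 1 + p.comp.time E.ρ s := by
        simp [HP.comp, Prog.time, h]
      have e5 : (HP.ite e p q).comp.top E.ρ s = max (e.top s) (p.comp.top E.ρ s) := by
        simp [HP.comp, Prog.top, h]
      refine ⟨by rw [e3]; exact b.bdd, by rw [e3]; exact b.r3, by rw [e3]; exact b.r4,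
        by rw [e3]; exact b.r5, ?_, by rw [e5]; exact max_lt t1 b.top⟩
      have h1 := b.time
      rw [e3, e4, h5]
      omega
  | loop i e p ih =>
    rintro ⟨⟨h3, h4, h5, h6⟩, he, hc, hp⟩ s hb
    obtain ⟨t1, t2⟩ := Okx_top hb (emin e (.reg 4)) (emin_ok (by decide) he)
      (by rw [emin_cost]; omega)
    set n := (emin e (.reg 4)).eval s with hn
    have hnL : n ≤ s.reg 4 := by rw [hn, emin_eval]; exact min_le_right _ _
    have hnR : n ≤ E.R := hnL.trans (hb.reg 4)
    set f : ℕ → State → State := fun t s' => p.comp.run E.ρ (s'.setReg i t) with hf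
    have key : ∀ m, m ≤ n → Bdd E (s.rounds f m) ∧ (s.rounds f m).reg 3 = s.reg 3 ∧
        (s.rounds f m).reg 4 = s.reg 4 ∧ (s.rounds f m).reg 5 ≤ s.reg 5 ∧
        (∑ t ∈ Finset.range m, (p.comp.time E.ρ ((s.rounds f t).setReg i t) + 2)) +
          (s.rounds f m).reg 5 * T ≤ m * (p.sz * (s.reg 4 + 2) ^ p.depth + 2) +
            s.reg 5 * T ∧
        ((Finset.range m).sup fun t => p.comp.top E.ρ ((s.rounds f t).setReg i t)) < E.N := by
      intro m
      induction m with
      | zero =>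
        intro _
        have := E.R_lt_N
        refine ⟨hb, rfl, rfl, le_rfl, ?_, ?_⟩
        · simp [State.rounds]
        · simp; omega
      | succ m ihm =>
        intro hm
        obtain ⟨i1, i2, i3, i4, i5, i6⟩ := ihm (by omega)
        have hb1 : Bdd E ((s.rounds f m).setReg i m) := i1.setReg i (by omega)
        have a := ih hp _ hb1
        have q3 : ((s.rounds f m).setReg i m).reg 3 = s.reg 3 := by simp [Ne.symm h3, i2]
        have q4 : ((s.rounds f m).setReg i m).reg 4 = s.reg 4 := by simp [Ne.symm h4, i3]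
        have q5 : ((s.rounds f m).setReg i m).reg 5 = (s.rounds f m).reg 5 := by
          simp [Ne.symm h5]
        have er : s.rounds f (m + 1) = p.comp.run E.ρ ((s.rounds f m).setReg i m) := rfl
        refine ⟨a.bdd, ?_, ?_, ?_, ?_, ?_⟩
        · rw [er, a.r3, q3]
        · rw [er, a.r4, q4]
        · rw [er]; exact a.r5.trans (by rw [q5]; exact i4)
        · rw [Finset.sum_range_succ, er]
          have h1 := a.time
          rw [q4, q5] at h1
          rw [Nat.succ_mul]
          omega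
        · rw [Finset.range_add_one, Finset.sup_insert]
          exact max_lt a.top i6
    obtain ⟨k1, k2, k3, k4, k5, k6⟩ := key n le_rfl
    have e3 : (HP.loop i e p).comp.run E.ρ s = s.rounds f n := rfl
    have e4 : (HP.loop i e p).comp.time E.ρ s = (emin e (.reg 4)).cost + 1 +
      ∑ t ∈ Finset.range n, (p.comp.time E.ρ ((s.rounds f t).setReg i t) + 2) := rfl
    refine ⟨k1, k2, k3, k4, ?_, max_lt t1 k6⟩
    rw [e3, e4, emin_cost]
    simp only [HP.sz, HP.depth]
    set L := s.reg 4 with hL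
    set X := (L + 2) ^ p.depth with hX
    have hX1 : 1 ≤ X := Nat.one_le_pow _ _ (by omega)
    have h7 : n * (p.sz * X + 2) ≤ L * (p.sz * X + 2) := Nat.mul_le_mul_right _ hnL
    have h8 : (2 * e.cost + 6 + p.sz) * (L + 2) ^ (p.depth + 1) =
      (2 * e.cost + 6) * ((L + 2) * X) + p.sz * X * (L + 2) := by rw [pow_succ]; ring
    have h9 : (2 * e.cost + 6) * (L + 2) ≤ (2 * e.cost + 6) * ((L + 2) * X) :=
      Nat.mul_le_mul_left _ (Nat.le_mul_of_pos_right _ hX1)
    have h10 : L * (p.sz * X + 2) = L * (p.sz * X) + 2 * L := by ring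
    have h11 : p.sz * X * (L + 2) = L * (p.sz * X) + 2 * (p.sz * X) := by ring
    have h12 : (2 * e.cost + 6) * (L + 2) = 2 * e.cost * L + 6 * L + (4 * e.cost + 12) := by ring
    rw [h8, h11]
    have h13 := Nat.zero_le (2 * e.cost * L)
    omega
  | big w q =>
    rintro ⟨hw, hc, hq'⟩ s hb
    obtain ⟨t1, t2⟩ := Okx_top hb (emin w (.reg 3)) (emin_ok (by decide) hw)
      (by rw [emin_cost]; omega)
    set v := (emin w (.reg 3)).eval s with hv
    have hvR : v ≤ E.R := by rw [hv, emin_eval]; exact (min_le_right _ _).trans (hb.reg 3)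
    set s1 := s.setReg 9 v with hs1
    have hb1 : Bdd E s1 := hb.setReg 9 hvR
    have hle := hb.reg 5
    have hR1 : E.R + 1 < E.N := by
      have h2 : E.R ^ 2 ≤ E.R ^ E.S := Nat.pow_le_pow_right (by omega)
        (by have := E.hS; omega)
      have h3 : E.R ^ 2 = E.R * E.R := by ring
      have h4 : 2 * E.R ≤ E.R * E.R := Nat.mul_le_mul_right _ hR
      have h5 := E.hN
      omega
    have r9 : s1.reg 9 = v := by simp [hs1]
    have r5 : s1.reg 5 = s.reg 5 := by simp [hs1]
    have r3 : s1.reg 3 = s.reg 3 := by simp [hs1]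
    have r4 : s1.reg 4 = s.reg 4 := by simp [hs1]
    by_cases h : v < s.reg 5
    · set s2 := s1.setReg 5 (s.reg 5 - (v + 1)) with hs2
      have hb2 : Bdd E s2 := hb1.setReg 5 (by omega)
      obtain ⟨b1, b2, b3⟩ := hq'.run s2 hb2
      have fr := q.frame E.ρ s2
      have e3 : (HP.big w q).comp.run E.ρ s = q.run E.ρ s2 := by
        simp only [HP.comp, Prog.run, ← hv, ← hs1, Expr.eval, Op.eval, r9, r5, if_pos h,
          one_ne_zero, if_false, ← hs2]
      have e4 : (HP.big w q).comp.time E.ρ s = 2 * w.cost + 14 + q.time E.ρ s2 := by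
        simp only [HP.comp, Prog.time, Prog.run, ← hv, ← hs1, Expr.eval, Op.eval, r9, r5, if_pos h,
          one_ne_zero, if_false, ← hs2, emin_cost, Expr.cost]
        omega
      have e5 : (HP.big w q).comp.top E.ρ s ≤ max (max ((emin w (.reg 3)).top s) (E.R + 1))
          (q.top E.ρ s2) := by
        simp only [HP.comp, Prog.top, Prog.run, ← hv, ← hs1, Expr.eval, Expr.top, Op.eval, r9, r5,
          if_pos h, one_ne_zero, if_false, ← hs2]
        simp only [max_le_iff]
        refine ⟨?_, ⟨⟨?_, ?_⟩, ?_⟩, ⟨⟨?_, ⟨?_, ?_⟩, ?_⟩, ?_⟩, ?_⟩ <;>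
          first
          | exact le_max_right _ _
          | exact le_max_of_le_left (le_max_left _ _)
          | exact le_max_of_le_left (le_max_of_le_right (by omega))
      have q3 : (q.run E.ρ s2).reg 3 = s.reg 3 := by rw [fr.reg 3 hq'.wr3]; simp [hs2, hs1]
      have q4 : (q.run E.ρ s2).reg 4 = s.reg 4 := by rw [fr.reg 4 hq'.wr4]; simp [hs2, hs1]
      have q5 : (q.run E.ρ s2).reg 5 = s.reg 5 - (v + 1) := by
        rw [fr.reg 5 hq'.wr5]; simp [hs2]
      have q9 : s2.reg 9 = v := by simp [hs2, hs1]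
      rw [q9] at b2
      refine ⟨by rw [e3]; exact b1, by rw [e3]; exact q3, by rw [e3]; exact q4,
        by rw [e3, q5]; omega, ?_, ?_⟩
      · rw [e3, e4, q5]
        simp only [HP.sz, HP.depth, pow_zero, mul_one]
        have h6 : s.reg 5 * T = (s.reg 5 - (v + 1)) * T + T * (v + 1) := by
          obtain ⟨m, hm⟩ := Nat.exists_eq_add_of_lt h
          rw [hm, show v + m + 1 - (v + 1) = m by omega]
          ring
        omega
      · exact lt_of_le_of_lt e5 (max_lt (max_lt t1 hR1) b3)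
    · have e3 : (HP.big w q).comp.run E.ρ s = s1.setReg 9 0 := by
        simp only [HP.comp, Prog.run, ← hv, ← hs1, Expr.eval, Op.eval, r9, r5, if_neg h, if_true]
      have e4 : (HP.big w q).comp.time E.ρ s = 2 * w.cost + 10 := by
        simp only [HP.comp, Prog.time, Prog.run, ← hv, ← hs1, Expr.eval, Op.eval, r9, r5, if_neg h,
          if_true, emin_cost, Expr.cost]
      have e5 : (HP.big w q).comp.top E.ρ s ≤ max ((emin w (.reg 3)).top s) (E.R + 1) := by
        simp only [HP.comp, Prog.top, Prog.run, ← hv, ← hs1, Expr.eval, Expr.top, Op.eval, r9, r5,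
          if_neg h, if_true]
        simp only [max_le_iff]
        refine ⟨?_, ⟨⟨?_, ?_⟩, ?_⟩, ?_⟩ <;>
          first
          | exact le_max_left _ _
          | exact le_max_of_le_right (by omega)
      refine ⟨by rw [e3]; exact hb1.setReg 9 (by omega), by rw [e3]; simp [hs1],
        by rw [e3]; simp [hs1], by rw [e3]; simp [hs1], ?_, ?_⟩
      · rw [e3, e4]; simp [HP.sz, HP.depth, hs1]
      · exact lt_of_le_of_lt e5 (max_lt t1 hR1)

end Vale.Agent.P315.H817
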