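import Vale.Agent.P315.DP

/-! The cell program: one exact (banded, clipped) dynamic program gives the distances of a row of
`x` to all the windows of `y` with a given start and with end in a net. -/

set_option autoImplicit false

namespace Vale.Agent.P315.H817

open Vale.Agent.P315

/-- The cell program. Input: register `40` start in `x`, `41` length in `x`, `42` start in `y`,
`43` unit of the net, `44` number of units, `45` half width of the band. Output in array `A`. -/
def cell (A : ℕ) : Prog :=
  .seq (.set 10 (.reg 40))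
  (.seq (.set 11 (emin (.reg 41) (esub (.reg 0) (.reg 40))))
  (.seq (.set 12 (.reg 42))
  (.seq (.set 13 (emin (emul (.reg 43) (.reg 44)) (esub (.reg 1) (.reg 42))))
  (.seq (.set 14 (.reg 45))
  (.seq dp
  (.loop 46 (eadd (.reg 44) (.lit 1))
    (.put A (.reg 46) (.get 2 (emin (emul (.reg 46) (.reg 43)) (.reg 13)))))))))) 

/-- The time of the cell program. -/
def cellTime (lx ly m k : ℕ) : ℕ :=
  60 + (((ly + 1) * 14 + lx * (62 + min ly (2 * k + 1) * 122)) + (m + 1) * 14)

theorem cell_spec {E : Env} {s : State} {X Y : ℕ → ℕ} {A nx ny a l c g m k : ℕ} (hA : 3 ≤ A)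
    (h0 : s.arr 0 = X) (h1 : s.arr 1 = Y) (r0 : s.reg 0 = nx) (r1 : s.reg 1 = ny)
    (h40 : s.reg 40 = a) (h41 : s.reg 41 = l) (h42 : s.reg 42 = c) (h43 : s.reg 43 = g)
    (h44 : s.reg 44 = m) (h45 : s.reg 45 = k)
    (hk : k + 1 ≤ E.R) (hg : g * m + 1 ≤ E.R) (hm : m + 1 ≤ E.R) :
    Spec E s (cell A) (cellTime (min l (nx - a)) (min (g * m) (ny - c)) m k)
      (fun s' => ∀ e ≤ m, s'.arr A e =
        cap X Y a c k (min l (nx - a)) (min (e * g) (min (g * m) (ny - c)))) := by
  unfold cell cellTime
  set lx := min l (nx - a) with hlx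
  set ly := min (g * m) (ny - c) with hly
  have hlyR : ly + 1 ≤ E.R := by omega
  refine Spec.set_seq a rfl (by decide) ?_ (fun hb => ?_) ?_
  · simp [h40]
  · rw [← h40]; exact hb.reg 40
  refine Spec.set_seq lx rfl (by decide) ?_ (fun hb => ?_) ?_
  · simp [h40, h41, r0, hlx]
  · have := hb.reg 41
    simp [h41] at this
    omega
  refine Spec.set_seq c rfl (by decide) ?_ (fun hb => ?_) ?_
  · simp [h42]
  · have := hb.reg 42
    simpa [h42] using this
  refine Spec.set_seq ly rfl (by decide) ?_ (fun hb => by omega) ?_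
  · simp [h43, h44, h42, r1, hly]
  refine Spec.set_seq k rfl (by decide) ?_ (fun hb => by omega) ?_
  · simp [h45]
  refine Spec.seq 10 ((ly + 1) * 14 + lx * (62 + min ly (2 * k + 1) * 122)) 10 ((m + 1) * 14)
    (fun s' => ∀ j ≤ ly, s'.arr 2 j = cap X Y a c k lx j) (by decide) le_rfl ?_ ?_
  · refine dp_spec ?_ ?_ ?_ ?_ ?_ ?_ ?_ hk hlyR
    · simpa using h0
    · simpa using h1
    · simp
    · simp
    · simp
    · simp
    · simp
  · intro s1 hfr1 hrow
    have g44 : s1.reg 44 = m := by rw [hfr1.reg 44 (by decide)]; simpa using h44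
    have g43 : s1.reg 43 = g := by rw [hfr1.reg 43 (by decide)]; simpa using h43
    have g13 : s1.reg 13 = ly := by rw [hfr1.reg 13 (by decide)]; simp
    refine Spec.mono (Spec.loop (m + 1) (12 + 0) (fun t s' => ∀ e < t, s'.arr A e =
      cap X Y a c k lx (min (e * g) ly)) rfl (by decide) (by apply le_of_eq; ring) ?_ ?_ ?_ ?_)
      le_rfl ?_
    · simp [g44]
    · intro _; exact hm
    · intro _ e he; omega
    · intro t ht s' hb hfr hI
      have e2 : s'.arr 2 = s1.arr 2 := hfr.arr 2 (by
        simp only [Prog.wa, List.mem_singleton]; omega)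
      have e43 : s'.reg 43 = g := by rw [hfr.reg 43 (by simp [Prog.wr])]; exact g43
      have e13 : s'.reg 13 = ly := by rw [hfr.reg 13 (by simp [Prog.wr])]; exact g13
      have hval : s1.arr 2 (min (t * g) ly) = cap X Y a c k lx (min (t * g) ly) :=
        hrow _ (min_le_right _ _)
      refine Spec.put t (cap X Y a c k lx (min (t * g) ly)) (by omega) rfl rfl (by decide) ?_ ?_
        (fun _ => (min_le_right _ _).trans hk) ?_
      · simp
      · simp [e43, e13, e2, hval]
      · intro _ e he
        rw [State.setArr_arr]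
        by_cases het : e = t
        · subst het; simp
        · rw [if_neg (by tauto)]
          simpa using hI e (by omega)
    · intro s' h e he
      exact h e (by omega)

theorem take_drop_eq_seg (x : List ℕ) (a l : ℕ) :
    (x.drop a).take l = seg (fun i => x.getD i 0) a (min l (x.length - a)) := by
  rcases Nat.lt_or_ge x.length a with h | h
  · have h1 : x.drop a = [] := List.drop_eq_nil_of_le (by omega)
    rw [h1, show x.length - a = 0 by omega]
    simp [seg_zero]
  · have h1 := factor_eq_seg x a (a + min l (x.length - a)) (by omega) (by omega)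
    rw [show a + min l (x.length - a) - a = min l (x.length - a) by omega] at h1
    rw [← h1]
    unfold factor
    rw [show a + min l (x.length - a) - a = min l (x.length - a) by omega]
    rw [← List.length_drop]
    exact (List.take_eq_take_min).trans rfl

/-- The cell program on lists: the distances of the row `x[a, a+l)` and the windows
`y[c, c + e g)`, capped at `k + 1`. -/
theorem cell_spec_list {E : Env} {s : State} {x y : List ℕ} {A a l c g m k : ℕ} (hA : 3 ≤ A)
    (h0 : s.arr 0 = fun i => x.getD i 0) (h1 : s.arr 1 = fun i => y.getD i 0)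
    (r0 : s.reg 0 = x.length) (r1 : s.reg 1 = y.length)
    (h40 : s.reg 40 = a) (h41 : s.reg 41 = l) (h42 : s.reg 42 = c) (h43 : s.reg 43 = g)
    (h44 : s.reg 44 = m) (h45 : s.reg 45 = k)
    (hk : k + 1 ≤ E.R) (hg : g * m + 1 ≤ E.R) (hm : m + 1 ≤ E.R) :
    Spec E s (cell A) (60 + (((g * m + 1) * 14 + l * (62 + min (g * m) (2 * k + 1) * 122)) +
        (m + 1) * 14))
      (fun s' => ∀ e ≤ m, s'.arr A e =
        min (lev ((x.drop a).take l) ((y.drop c).take (e * g))) (k + 1)) := by
  refine Spec.mono (cell_spec hA h0 h1 r0 r1 h40 h41 h42 h43 h44 h45 hk hg hm) ?_ ?_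
  · unfold cellTime
    have h2 : min l (x.length - a) * (62 + min (min (g * m) (y.length - c)) (2 * k + 1) * 122) ≤
        l * (62 + min (g * m) (2 * k + 1) * 122) := by
      apply Nat.mul_le_mul (min_le_left _ _)
      have : min (min (g * m) (y.length - c)) (2 * k + 1) ≤ min (g * m) (2 * k + 1) := by omega
      omega
    omega
  · intro s' h e he
    rw [h e he, take_drop_eq_seg x a l, take_drop_eq_seg y c (e * g)]
    have h3 : e * g ≤ g * m := by rw [Nat.mul_comm g m]; exact Nat.mul_le_mul_right g he
    rw [show min (e * g) (min (g * m) (y.length - c)) = min (e * g) (y.length - c) by omega]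
    rfl

/-- Without a cap: the exact edit distances. -/
theorem cell_spec_exact {E : Env} {s : State} {x y : List ℕ} {A a l c g m k : ℕ} (hA : 3 ≤ A)
    (h0 : s.arr 0 = fun i => x.getD i 0) (h1 : s.arr 1 = fun i => y.getD i 0)
    (r0 : s.reg 0 = x.length) (r1 : s.reg 1 = y.length)
    (h40 : s.reg 40 = a) (h41 : s.reg 41 = l) (h42 : s.reg 42 = c) (h43 : s.reg 43 = g)
    (h44 : s.reg 44 = m) (h45 : s.reg 45 = k) (hkl : l + g * m ≤ k)
    (hk : k + 1 ≤ E.R) (hm : m + 1 ≤ E.R) :
    Spec E s (cell A) (60 + (((g * m + 1) * 14 + l * (62 + min (g * m) (2 * k + 1) * 122)) +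
        (m + 1) * 14))
      (fun s' => ∀ e ≤ m, s'.arr A e = ED ((x.drop a).take l) ((y.drop c).take (e * g))) := by
  refine Spec.mono (cell_spec_list hA h0 h1 r0 r1 h40 h41 h42 h43 h44 h45 hk (by omega) hm)
    le_rfl ?_
  intro s' h e he
  rw [h e he, ED_eq_lev]
  apply min_eq_left
  have h1 := lev_le_length ((x.drop a).take l) ((y.drop c).take (e * g))
  have h2 : ((x.drop a).take l).length ≤ l := List.length_take_le _ _
  have h3 : ((y.drop c).take (e * g)).length ≤ e * g := List.length_take_le _ _
  have h4 : e * g ≤ g * m := by rw [Nat.mul_comm g m]; exact Nat.mul_le_mul_right g he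
  omega

end Vale.Agent.P315.H817
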